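import Mathlib

/-! Finite weights: Gibbs inequality, push-forward, entropy of random variables,
symmetrisation under a finite group action. -/

set_option autoImplicit false
set_option linter.unusedSectionVars false

namespace Crest.Agent.R55
open Finset Real

section Gibbs
variable {A B : Type*} [Fintype A] [Fintype B]

theorem gibbs (ρ τ : A → ℝ) (hρ : ∀ a, 0 ≤ ρ a) (hτ : ∀ a, 0 ≤ τ a)
    (hpos : ∀ a, 0 < ρ a → 0 < τ a) :
    ∑ a, ρ a * (log (τ a) - log (ρ a)) ≤ ∑ a, τ a - ∑ a, ρ a := by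
  rw [← Finset.sum_sub_distrib]
  refine Finset.sum_le_sum fun a _ => ?_
  rcases (hρ a).eq_or_lt with h | h
  · rw [← h]; simpa using hτ a
  · have h2 := hpos a h
    rw [← Real.log_div h2.ne' h.ne']
    have h3 := Real.log_le_sub_one_of_pos (div_pos h2 h)
    calc ρ a * log (τ a / ρ a) ≤ ρ a * (τ a / ρ a - 1) := mul_le_mul_of_nonneg_left h3 h.le
      _ = τ a - ρ a := by field_simp

variable [DecidableEq B]

/-- Push-forward of a weight function. -/
noncomputable def push (f : A → B) (ρ : A → ℝ) (b : B) : ℝ := ∑ a, if f a = b then ρ a else 0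

theorem sum_push_mul (f : A → B) (ρ : A → ℝ) (g : B → ℝ) :
    ∑ b, push f ρ b * g b = ∑ a, ρ a * g (f a) := by
  unfold push
  simp_rw [Finset.sum_mul]
  rw [Finset.sum_comm]
  refine Finset.sum_congr rfl fun a _ => ?_
  rw [Finset.sum_eq_single (f a)]
  · simp
  · intro b _ hb; simp [Ne.symm hb]
  · simp

theorem sum_push (f : A → B) (ρ : A → ℝ) : ∑ b, push f ρ b = ∑ a, ρ a := by
  simpa using sum_push_mul f ρ (fun _ => 1)

omit [Fintype B] in
theorem push_nonneg (f : A → B) {ρ : A → ℝ} (hρ : ∀ a, 0 ≤ ρ a) (b : B) : 0 ≤ push f ρ b :=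
  Finset.sum_nonneg fun a _ => by split_ifs; exacts [hρ a, le_rfl]

omit [Fintype B] in
theorem le_push (f : A → B) {ρ : A → ℝ} (hρ : ∀ a, 0 ≤ ρ a) (a : A) : ρ a ≤ push f ρ (f a) := by
  unfold push
  refine le_trans ?_ (Finset.single_le_sum (f := fun a' => if f a' = f a then ρ a' else 0)
    (fun a' _ => by split_ifs; exacts [hρ a', le_rfl]) (Finset.mem_univ a))
  simp

omit [Fintype B] in
theorem exists_of_push_ne_zero (f : A → B) {ρ : A → ℝ} {b : B} (h : push f ρ b ≠ 0) :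
    ∃ a, f a = b ∧ ρ a ≠ 0 := by
  obtain ⟨a, -, ha⟩ := Finset.exists_ne_zero_of_sum_ne_zero h
  by_cases h1 : f a = b
  · exact ⟨a, h1, by simpa [h1] using ha⟩
  · simp [h1] at ha

omit [Fintype B] in
theorem exists_of_push_pos (f : A → B) {ρ : A → ℝ} (hρ : ∀ a, 0 ≤ ρ a) {b : B}
    (h : 0 < push f ρ b) : ∃ a, f a = b ∧ 0 < ρ a := by
  obtain ⟨a, h1, h2⟩ := exists_of_push_ne_zero f h.ne'
  exact ⟨a, h1, lt_of_le_of_ne (hρ a) (Ne.symm h2)⟩

omit [Fintype B] in
theorem push_mono (f : A → B) {ρ τ : A → ℝ} (h : ∀ a, ρ a ≤ τ a) (b : B) :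
    push f ρ b ≤ push f τ b :=
  Finset.sum_le_sum fun a _ => by split_ifs; exacts [h a, le_rfl]

theorem push_push {C : Type*} [DecidableEq C] (f : A → B) (g : B → C) (ρ : A → ℝ) :
    push g (push f ρ) = push (fun a => g (f a)) ρ := by
  funext c
  have := sum_push_mul f ρ (fun b => if g b = c then 1 else 0)
  unfold push at this ⊢
  simpa using this

/-- Data processing (log-sum) inequality. -/
theorem kl_push_le (f : A → B) (ρ τ : A → ℝ) (hρ : ∀ a, 0 ≤ ρ a) (hτ : ∀ a, 0 ≤ τ a)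
    (hpos : ∀ a, 0 < ρ a → 0 < τ a) :
    ∑ b, push f ρ b * (log (push f ρ b) - log (push f τ b))
      ≤ ∑ a, ρ a * (log (ρ a) - log (τ a)) := by
  have h1 := gibbs ρ (fun a => τ a * (push f ρ (f a) / push f τ (f a))) hρ
    (fun a => mul_nonneg (hτ a) (div_nonneg (push_nonneg f hρ _) (push_nonneg f hτ _)))
    (fun a ha => mul_pos (hpos a ha) (div_pos (lt_of_lt_of_le ha (le_push f hρ a))
      (lt_of_lt_of_le (hpos a ha) (le_push f hτ a))))
  have h2 : ∑ a, τ a * (push f ρ (f a) / push f τ (f a)) ≤ ∑ a, ρ a := by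
    rw [← sum_push_mul f τ (fun b => push f ρ b / push f τ b), ← sum_push f ρ]
    refine Finset.sum_le_sum fun b _ => ?_
    rcases (push_nonneg f hτ b).eq_or_lt with h | h
    · rw [← h]; simpa using push_nonneg f hρ b
    · rw [mul_div_cancel₀ _ h.ne']
  rw [sum_push_mul f ρ (fun b => log (push f ρ b) - log (push f τ b))]
  have h3 : ∑ a, ρ a * (log (τ a * (push f ρ (f a) / push f τ (f a))) - log (ρ a))
      = ∑ a, ρ a * (log (push f ρ (f a)) - log (push f τ (f a)))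
        - ∑ a, ρ a * (log (ρ a) - log (τ a)) := by
    rw [← Finset.sum_sub_distrib]
    refine Finset.sum_congr rfl fun a _ => ?_
    rcases (hρ a).eq_or_lt with h | h
    · rw [← h]; simp
    · have h4 := hpos a h
      have h5 := lt_of_lt_of_le h (le_push f hρ a)
      have h6 := lt_of_lt_of_le h4 (le_push f hτ a)
      rw [Real.log_mul h4.ne' (div_pos h5 h6).ne', Real.log_div h5.ne' h6.ne']
      ring
  linarith

/-- Entropy of a weight function. -/
noncomputable def ent (ρ : A → ℝ) : ℝ := -∑ a, ρ a * log (ρ a)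

theorem continuous_ent : Continuous (ent : (A → ℝ) → ℝ) := by
  unfold ent
  refine Continuous.neg (continuous_finsetSum _ fun a _ => ?_)
  exact Real.continuous_mul_log.comp (continuous_apply a)

/-- Entropy of a random variable. -/
noncomputable def Hv (w : A → ℝ) (f : A → B) : ℝ := -∑ a, w a * log (push f w (f a))

theorem ent_push (w : A → ℝ) (f : A → B) : ent (push f w) = Hv w f := by
  unfold ent Hv
  rw [sum_push_mul f w (fun b => log (push f w b))]

omit [Fintype B] in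
theorem Hv_congr {C : Type*} [DecidableEq C] (w : A → ℝ) (f : A → B) (g : A → C)
    (h : ∀ a a', f a = f a' ↔ g a = g a') : Hv w f = Hv w g := by
  unfold Hv push
  congr 1
  refine Finset.sum_congr rfl fun a _ => ?_
  congr 2
  refine Finset.sum_congr rfl fun a' _ => ?_
  simp [h]

theorem Hv_id [DecidableEq A] (w : A → ℝ) : Hv w (fun a => a) = ent w := by
  unfold Hv ent push
  simp

omit [Fintype B] in
theorem Hv_const (w : A → ℝ) (hw : ∑ a, w a = 1) (b : B) : Hv w (fun _ => b) = 0 := by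
  unfold Hv push
  simp [hw]

/-- Coding lemma: the entropy gained by adding a bit. -/
theorem Hv_bit_le (w : A → ℝ) (hw : ∀ a, 0 ≤ w a) (R : A → B) (b : A → Bool)
    (k : B → Bool → ℝ) (hk : ∀ r c, 0 ≤ k r c) (hpos : ∀ a, 0 < w a → 0 < k (R a) (b a)) :
    Hv w (fun a => (R a, b a)) - Hv w R
      ≤ -∑ a, w a * log (k (R a) (b a)) + ∑ a, w a * (k (R a) false + k (R a) true)
        - ∑ a, w a := by
  have h1 := gibbs (push (fun a => (R a, b a)) w) (fun x => push R w x.1 * k x.1 x.2)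
    (push_nonneg _ hw) (fun x => mul_nonneg (push_nonneg _ hw _) (hk _ _)) (by
      intro x hx
      obtain ⟨a, rfl, ha⟩ := exists_of_push_pos _ hw hx
      exact mul_pos (lt_of_lt_of_le ha (le_push R hw a)) (hpos a ha))
  rw [sum_push, sum_push_mul (fun a => (R a, b a)) w
    (fun x => log (push R w x.1 * k x.1 x.2) - log (push (fun a => (R a, b a)) w x))] at h1
  have h2 : ∑ x : B × Bool, push R w x.1 * k x.1 x.2
      = ∑ a, w a * (k (R a) false + k (R a) true) := by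
    rw [Fintype.sum_prod_type, ← sum_push_mul R w (fun r => k r false + k r true)]
    refine Finset.sum_congr rfl fun r _ => ?_
    simp; ring
  have h3 : ∑ a, w a * (log (push R w (R a) * k (R a) (b a))
        - log (push (fun a => (R a, b a)) w (R a, b a)))
      = Hv w (fun a => (R a, b a)) - Hv w R + ∑ a, w a * log (k (R a) (b a)) := by
    unfold Hv
    rw [neg_sub_neg, ← Finset.sum_sub_distrib, ← Finset.sum_add_distrib]
    refine Finset.sum_congr rfl fun a _ => ?_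
    rcases (hw a).eq_or_lt with h | h
    · rw [← h]; simp
    · rw [Real.log_mul (lt_of_lt_of_le h (le_push R hw a)).ne' (hpos a h).ne']
      ring
  rw [h2] at h1
  simp only at h1
  linarith

/-- Conditional expectation of `g` given `Y = y`. -/
noncomputable def cE (w : A → ℝ) (Y : A → B) (g : A → ℝ) (y : B) : ℝ :=
  push Y (fun a => w a * g a) y / push Y w y

omit [Fintype B] in
theorem push_mul_cE (w : A → ℝ) (hw : ∀ a, 0 ≤ w a) (Y : A → B) (g : A → ℝ) (y : B) :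
    push Y w y * cE w Y g y = push Y (fun a => w a * g a) y := by
  unfold cE
  by_cases h : push Y w y = 0
  · rw [h, zero_mul]
    by_contra h2
    obtain ⟨a, rfl, ha⟩ := exists_of_push_ne_zero Y (Ne.symm h2)
    have h3 := le_push Y hw a
    have h4 : w a = 0 := le_antisymm (h ▸ h3) (hw a)
    simp [h4] at ha
  · field_simp

theorem tower (w : A → ℝ) (hw : ∀ a, 0 ≤ w a) (Y : A → B) (g : A → ℝ) (φ : B → ℝ) :
    ∑ a, w a * (g a * φ (Y a)) = ∑ a, w a * (cE w Y g (Y a) * φ (Y a)) := by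
  rw [← sum_push_mul Y w (fun y => cE w Y g y * φ y)]
  simp_rw [← mul_assoc, push_mul_cE w hw]
  rw [sum_push_mul]

omit [Fintype B] in
theorem cE_nonneg (w : A → ℝ) (hw : ∀ a, 0 ≤ w a) (Y : A → B) (g : A → ℝ) (hg : ∀ a, 0 ≤ g a)
    (y : B) : 0 ≤ cE w Y g y :=
  div_nonneg (push_nonneg _ (fun a => mul_nonneg (hw a) (hg a)) _) (push_nonneg _ hw _)

omit [Fintype B] in
theorem cE_pos (w : A → ℝ) (hw : ∀ a, 0 ≤ w a) (Y : A → B) (g : A → ℝ) (hg : ∀ a, 0 ≤ g a)
    (a : A) (h1 : 0 < w a) (h2 : 0 < g a) : 0 < cE w Y g (Y a) :=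
  div_pos (lt_of_lt_of_le (mul_pos h1 h2)
    (le_push Y (ρ := fun a => w a * g a) (fun a => mul_nonneg (hw a) (hg a)) a))
    (lt_of_lt_of_le h1 (le_push Y hw a))

end Gibbs

section Sym
variable (Γ : Type*) [Group Γ] [Fintype Γ]
variable {A B : Type*} [Fintype A] [Fintype B] [MulAction Γ A] [MulAction Γ B]

/-- Average of a weight function over the group. -/
noncomputable def sym (ρ : A → ℝ) (a : A) : ℝ := (∑ γ : Γ, ρ (γ • a)) / Fintype.card Γ

theorem card_pos' : (0 : ℝ) < Fintype.card Γ := by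
  exact_mod_cast Fintype.card_pos

variable {Γ}

theorem sym_smul (ρ : A → ℝ) (g : Γ) (a : A) : sym Γ ρ (g • a) = sym Γ ρ a := by
  unfold sym
  congr 1
  simp_rw [smul_smul]
  exact Fintype.sum_equiv (Equiv.mulRight g) _ _ (fun γ => rfl)

theorem sum_sym_mul (ρ φ : A → ℝ) (hφ : ∀ (g : Γ) a, φ (g • a) = φ a) :
    ∑ a, sym Γ ρ a * φ a = ∑ a, ρ a * φ a := by
  unfold sym
  simp_rw [div_mul_eq_mul_div, Finset.sum_mul]
  rw [← Finset.sum_div, Finset.sum_comm]
  have : ∀ γ : Γ, ∑ a, ρ (γ • a) * φ a = ∑ a, ρ a * φ a := by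
    intro γ
    refine Fintype.sum_equiv (MulAction.toPerm γ) _ _ (fun a => ?_)
    simp [hφ]
  simp_rw [this]
  rw [Finset.sum_const, Finset.card_univ, nsmul_eq_mul]
  have := card_pos' Γ
  field_simp

variable (Γ)

theorem sum_sym (ρ : A → ℝ) : ∑ a, sym Γ ρ a = ∑ a, ρ a := by
  simpa using sum_sym_mul (Γ := Γ) ρ (fun _ => 1) (fun _ _ => rfl)

theorem sym_nonneg {ρ : A → ℝ} (hρ : ∀ a, 0 ≤ ρ a) (a : A) : 0 ≤ sym Γ ρ a :=
  div_nonneg (Finset.sum_nonneg fun _ _ => hρ _) (card_pos' Γ).le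

theorem sym_pos {ρ : A → ℝ} (hρ : ∀ a, 0 ≤ ρ a) {a : A} (h : 0 < ρ a) : 0 < sym Γ ρ a := by
  refine div_pos (lt_of_lt_of_le ?_ (Finset.single_le_sum (f := fun γ : Γ => ρ (γ • a))
    (fun _ _ => hρ _) (Finset.mem_univ 1))) (card_pos' Γ)
  simpa using h

theorem exists_of_sym_ne_zero {ρ : A → ℝ} {a : A} (h : sym Γ ρ a ≠ 0) :
    ∃ γ : Γ, ρ (γ • a) ≠ 0 := by
  by_contra hc
  push Not at hc
  apply h
  simp [sym, hc]

theorem exists_of_sym_pos {ρ : A → ℝ} (hρ : ∀ a, 0 ≤ ρ a) {a : A} (h : 0 < sym Γ ρ a) :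
    ∃ γ : Γ, 0 < ρ (γ • a) := by
  obtain ⟨γ, hγ⟩ := exists_of_sym_ne_zero Γ h.ne'
  exact ⟨γ, lt_of_le_of_ne (hρ _) (Ne.symm hγ)⟩

theorem continuous_sym : Continuous (sym Γ : (A → ℝ) → A → ℝ) := by
  unfold sym
  fun_prop

/-- Divergence of a weight function from its symmetrisation. -/
noncomputable def J (ρ : A → ℝ) : ℝ := ent (sym Γ ρ) - ent ρ

theorem J_eq (ρ : A → ℝ) : J Γ ρ = ∑ a, ρ a * (log (ρ a) - log (sym Γ ρ a)) := by
  unfold J ent
  rw [sum_sym_mul ρ (fun a => log (sym Γ ρ a)) (fun g a => by rw [sym_smul])]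
  simp_rw [mul_sub]
  rw [Finset.sum_sub_distrib]; ring

theorem continuous_J : Continuous (J Γ : (A → ℝ) → ℝ) :=
  (continuous_ent.comp (continuous_sym Γ)).sub continuous_ent

variable {Γ}

theorem J_le (ρ τ : A → ℝ) (hρ : ∀ a, 0 ≤ ρ a) (hτ : ∀ a, 0 ≤ τ a)
    (hpos : ∀ a, 0 < ρ a → 0 < τ a) (hinv : ∀ (g : Γ) a, τ (g • a) = τ a)
    (hsum : ∑ a, τ a ≤ ∑ a, ρ a) :
    J Γ ρ ≤ ∑ a, ρ a * (log (ρ a) - log (τ a)) := by
  have h1 := gibbs (sym Γ ρ) τ (sym_nonneg Γ hρ) hτ (by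
    intro a ha
    obtain ⟨γ, hγ⟩ := exists_of_sym_pos Γ hρ ha
    rw [← hinv γ a]; exact hpos _ hγ)
  rw [sum_sym_mul ρ (fun a => log (τ a) - log (sym Γ ρ a))
    (fun g a => by rw [sym_smul, hinv]), sum_sym] at h1
  rw [J_eq]
  have h2 : ∑ a, ρ a * (log (ρ a) - log (sym Γ ρ a)) = ∑ a, ρ a * (log (ρ a) - log (τ a))
      + ∑ a, ρ a * (log (τ a) - log (sym Γ ρ a)) := by
    rw [← Finset.sum_add_distrib]
    exact Finset.sum_congr rfl fun a _ => by ring
  linarith

variable [DecidableEq B]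

theorem push_smul (f : A → B) (hf : ∀ (g : Γ) a, f (g • a) = g • f a) (ρ : A → ℝ) (g : Γ)
    (b : B) : push f ρ (g • b) = push f (fun a => ρ (g • a)) b := by
  unfold push
  refine (Fintype.sum_equiv (MulAction.toPerm g) _ _ (fun a => ?_)).symm
  simp [hf]

theorem push_sym (f : A → B) (hf : ∀ (g : Γ) a, f (g • a) = g • f a) (ρ : A → ℝ) :
    push f (sym Γ ρ) = sym Γ (push f ρ) := by
  funext b
  unfold sym
  simp_rw [push_smul f hf]
  unfold push
  rw [Finset.sum_comm, Finset.sum_div]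
  refine Finset.sum_congr rfl fun a _ => ?_
  split_ifs <;> simp

theorem J_push_le (f : A → B) (hf : ∀ (g : Γ) a, f (g • a) = g • f a)
    (ρ τ : A → ℝ) (hρ : ∀ a, 0 ≤ ρ a) (hτ : ∀ a, 0 ≤ τ a)
    (hpos : ∀ a, 0 < ρ a → 0 < τ a) (hinv : ∀ (g : Γ) a, τ (g • a) = τ a)
    (hsum : ∑ a, τ a ≤ ∑ a, ρ a) :
    J Γ (push f ρ) ≤ ∑ a, ρ a * (log (ρ a) - log (τ a)) := by
  refine le_trans (J_le (push f ρ) (push f τ) (push_nonneg f hρ) (push_nonneg f hτ) ?_ ?_ ?_)
    (kl_push_le f ρ τ hρ hτ hpos)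
  · intro b hb
    obtain ⟨a, rfl, ha⟩ := exists_of_push_pos f hρ hb
    exact lt_of_lt_of_le (hpos a ha) (le_push f hτ a)
  · intro g b
    rw [push_smul f hf]
    simp_rw [hinv]
  · rwa [sum_push, sum_push]

end Sym

end Crest.Agent.R55
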