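import Crest.Agent.R55.Reveal

/-! The extremal argument: first-moment lower bounds on orbits imply spreadness. -/

set_option autoImplicit false
set_option linter.unusedSectionVars false

namespace Crest.Agent.R55
open Finset Real
open scoped Pointwise

variable {X : Type*} [Fintype X] [DecidableEq X]

/-- Marginal probability of an element. -/
noncomputable def marg (μ : Finset X → ℝ) (e : X) : ℝ := ∑ U, μ U * ind (decide (e ∈ U))

/-- Expected size. -/
noncomputable def size (μ : Finset X → ℝ) : ℝ := ∑ U, μ U * U.card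

/-- The penalty functional. -/
noncomputable def Wf (μ : Finset X → ℝ) : ℝ := ∑ e, phi (marg μ e)

/-- Probability laws on subsets of `H`. -/
def IsLaw (H : Finset X) (μ : Finset X → ℝ) : Prop :=
  (∀ U, 0 ≤ μ U) ∧ ∑ U, μ U = 1 ∧ ∀ U, 0 < μ U → U ⊆ H

theorem card_eq_sum_ind (U : Finset X) : (U.card : ℝ) = ∑ e, ind (decide (e ∈ U)) := by
  simp [ind]

theorem size_eq (μ : Finset X → ℝ) : size μ = ∑ e, marg μ e := by
  unfold size marg
  rw [Finset.sum_comm]
  simp_rw [card_eq_sum_ind, Finset.mul_sum]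

theorem marg_nonneg {μ : Finset X → ℝ} (h : ∀ U, 0 ≤ μ U) (e : X) : 0 ≤ marg μ e :=
  Finset.sum_nonneg fun U _ => mul_nonneg (h U) (ind_nonneg _)

theorem marg_le_one {μ : Finset X → ℝ} (h : ∀ U, 0 ≤ μ U) (hs : ∑ U, μ U = 1) (e : X) :
    marg μ e ≤ 1 := by
  rw [← hs]
  refine Finset.sum_le_sum fun U _ => mul_le_of_le_one_right (h U) ?_
  unfold ind; split_ifs <;> norm_num

theorem Wf_nonneg {μ : Finset X → ℝ} (h : ∀ U, 0 ≤ μ U) : 0 ≤ Wf μ :=
  Finset.sum_nonneg fun e _ => phi_nonneg (marg_nonneg h e)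

theorem phi_union {x : ℝ} (h0 : 0 ≤ x) (h1 : x ≤ 1) :
    5 / 2 * phi x - 3 * x ^ 2 ≤ phi (2 * x - x ^ 2) := by
  unfold phi
  have e : 2 * x - x ^ 2 = x * (2 - x) := by ring
  rw [e, Real.sqrt_mul h0]
  have h2 : 7 / 5 - 2 / 5 * x ≤ √(2 - x) := Real.le_sqrt_of_sq_le (by nlinarith)
  have h3 : x ≤ √x := Real.le_sqrt_of_sq_le (by nlinarith)
  have h4 : √x ≤ 1 := Real.sqrt_le_one.mpr h1
  have h5 := Real.sqrt_nonneg x
  have h6 := Real.mul_self_sqrt h0
  set t := √x
  set r := √(2 - x)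
  have h7 : 5 / 2 - 3 * t ≤ (2 - x) * r := by nlinarith
  have h8 : 0 ≤ x * t := mul_nonneg h0 h5
  have h9 := mul_le_mul_of_nonneg_left h7 h8
  have h10 : x * t * (3 * t) = 3 * x ^ 2 := by rw [pow_two]; nth_rewrite 3 [← h6]; ring
  nlinarith

theorem sum_prod_mul {A : Type*} [Fintype A] (ν f g : A → ℝ) :
    ∑ x : A × A, ν x.1 * ν x.2 * (f x.1 * g x.2) = (∑ a, ν a * f a) * ∑ a, ν a * g a := by
  rw [Fintype.sum_prod_type, Finset.sum_mul_sum]
  exact Finset.sum_congr rfl fun a _ => Finset.sum_congr rfl fun b _ => by ring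

theorem marg_inter (ν : Finset X → ℝ) (e : X) :
    marg (push (fun x : Finset X × Finset X => x.1 ∩ x.2) (fun x => ν x.1 * ν x.2)) e
      = marg ν e ^ 2 := by
  unfold marg
  rw [sum_push_mul, pow_two, ← sum_prod_mul]
  refine Finset.sum_congr rfl fun x _ => ?_
  by_cases h1 : e ∈ x.1 <;> by_cases h2 : e ∈ x.2 <;> simp [ind, h1, h2]

theorem marg_union (ν : Finset X → ℝ) (hs : ∑ U, ν U = 1) (e : X) :
    marg (push (fun x : Finset X × Finset X => x.1 ∪ x.2) (fun x => ν x.1 * ν x.2)) e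
      = 2 * marg ν e - marg ν e ^ 2 := by
  unfold marg
  have h1 := sum_prod_mul ν (fun U => ind (decide (e ∈ U))) (fun _ => 1)
  have h2 := sum_prod_mul ν (fun _ => 1) (fun U => ind (decide (e ∈ U)))
  have h3 := sum_prod_mul ν (fun U => ind (decide (e ∈ U))) (fun U => ind (decide (e ∈ U)))
  simp only [mul_one, hs, one_mul] at h1 h2
  rw [sum_push_mul, pow_two, ← h3, two_mul]
  nth_rewrite 1 [← h1]
  rw [← h2, ← Finset.sum_add_distrib, ← Finset.sum_sub_distrib]
  refine Finset.sum_congr rfl fun x _ => ?_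
  by_cases h1 : e ∈ x.1 <;> by_cases h2 : e ∈ x.2 <;> simp [ind, h1, h2]

variable (Γ : Type*) [Group Γ] [Fintype Γ] [MulAction Γ X]

/-- The potential. -/
noncomputable def Psi (c : ℝ) (μ : Finset X → ℝ) : ℝ := c * size μ - J Γ μ + Wf μ

theorem continuous_Psi (c : ℝ) : Continuous (Psi Γ c : (Finset X → ℝ) → ℝ) := by
  unfold Psi
  refine Continuous.add (Continuous.sub ?_ (continuous_J Γ)) ?_
  · unfold size; fun_prop
  · unfold Wf marg
    exact continuous_finsetSum _ fun e _ => continuous_phi.comp (by fun_prop)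

theorem exists_max (H : Finset X) (c : ℝ) :
    ∃ ν, IsLaw H ν ∧ ∀ μ, IsLaw H μ → Psi Γ c μ ≤ Psi Γ c ν := by
  have hc : IsCompact {μ : Finset X → ℝ | IsLaw H μ} := by
    have e : {μ : Finset X → ℝ | IsLaw H μ}
        = stdSimplex ℝ (Finset X) ∩ ⋂ U ∈ {U : Finset X | ¬ U ⊆ H}, {μ | μ U = 0} := by
      ext μ
      simp only [IsLaw, stdSimplex, Set.mem_ofPred_eq, Set.mem_inter_iff, Set.mem_iInter]
      constructor
      · rintro ⟨h1, h2, h3⟩
        exact ⟨⟨h1, h2⟩, fun U hU => le_antisymm (not_lt.mp fun h => hU (h3 U h)) (h1 U)⟩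
      · rintro ⟨⟨h1, h2⟩, h3⟩
        exact ⟨h1, h2, fun U hU => by_contra fun h => hU.ne' (h3 U h)⟩
    rw [e]
    refine (isCompact_stdSimplex ℝ _).inter_right (isClosed_biInter fun U _ => ?_)
    exact isClosed_eq (continuous_apply U) continuous_const
  have hne : {μ : Finset X → ℝ | IsLaw H μ}.Nonempty := by
    refine ⟨fun U => if U = ∅ then 1 else 0, fun U => by
      beta_reduce; split_ifs <;> norm_num, by simp, ?_⟩
    intro U hU
    by_cases h : U = ∅
    · simp [h]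
    · simp [h] at hU
  obtain ⟨ν, hν, hmax⟩ := hc.exists_isMaxOn hne (continuous_Psi Γ c).continuousOn
  exact ⟨ν, hν, fun μ hμ => hmax hμ⟩

section Main
variable (ν : Finset X → ℝ)

/-- Law of `(U₁, U₁ ∩ U₂)`. -/
noncomputable def kap : Finset X × Finset X → ℝ :=
  push (fun x : Finset X × Finset X => (x.1, x.1 ∩ x.2)) (fun x => ν x.1 * ν x.2)

/-- Law of `U₁ ∩ U₂`. -/
noncomputable def sig : Finset X → ℝ :=
  push (fun x : Finset X × Finset X => x.1 ∩ x.2) (fun x => ν x.1 * ν x.2)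

/-- Law of `(U, S'')`. -/
noncomputable def rho (x : Finset X × Finset X) : ℝ :=
  ν x.1 * (sym Γ (kap ν) x / sym Γ ν x.1)

variable {ν}

theorem kap_nonneg (h0 : ∀ U, 0 ≤ ν U) (x : Finset X × Finset X) : 0 ≤ kap ν x :=
  push_nonneg _ (fun _ => mul_nonneg (h0 _) (h0 _)) _

theorem sig_nonneg (h0 : ∀ U, 0 ≤ ν U) (x : Finset X) : 0 ≤ sig ν x :=
  push_nonneg _ (fun _ => mul_nonneg (h0 _) (h0 _)) _

theorem rho_nonneg (h0 : ∀ U, 0 ≤ ν U) (x : Finset X × Finset X) : 0 ≤ rho Γ ν x :=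
  mul_nonneg (h0 _) (div_nonneg (sym_nonneg Γ (kap_nonneg h0) _) (sym_nonneg Γ h0 _))

theorem sum_w1 (hs : ∑ U, ν U = 1) : ∑ x : Finset X × Finset X, ν x.1 * ν x.2 = 1 := by
  simpa [hs] using sum_prod_mul ν (fun _ => 1) (fun _ => 1)

theorem push_fst_kap (hs : ∑ U, ν U = 1) : push Prod.fst (kap ν) = ν := by
  unfold kap
  rw [push_push]
  funext U
  unfold push
  rw [Fintype.sum_prod_type, Finset.sum_eq_single U]
  · simp [← Finset.mul_sum, hs]
  · intro V _ hV; simp [hV]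
  · simp

theorem push_snd_kap : push Prod.snd (kap ν) = sig ν := by
  unfold kap sig
  rw [push_push]

theorem sum_kapb_snd (hs : ∑ U, ν U = 1) (U : Finset X) :
    ∑ Z, sym Γ (kap ν) (U, Z) = sym Γ ν U := by
  have h := push_sym (Γ := Γ) (Prod.fst : Finset X × Finset X → Finset X) (fun _ _ => rfl) (kap ν)
  rw [push_fst_kap hs] at h
  rw [← h]
  unfold push
  symm
  rw [Fintype.sum_prod_type, Finset.sum_eq_single U]
  · simp
  · intro V _ hV; simp [hV]
  · simp

theorem sum_kapb_fst (Z : Finset X) :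
    ∑ U, sym Γ (kap ν) (U, Z) = sym Γ (sig ν) Z := by
  have h := push_sym (Γ := Γ) (Prod.snd : Finset X × Finset X → Finset X) (fun _ _ => rfl) (kap ν)
  rw [push_snd_kap] at h
  rw [← h]
  unfold push
  rw [Fintype.sum_prod_type]
  refine Finset.sum_congr rfl fun U _ => ?_
  simp

theorem kapb_le_nub (h0 : ∀ U, 0 ≤ ν U) (hs : ∑ U, ν U = 1) (U Z : Finset X) :
    sym Γ (kap ν) (U, Z) ≤ sym Γ ν U := by
  rw [← sum_kapb_snd Γ hs]
  exact Finset.single_le_sum (f := fun Z => sym Γ (kap ν) (U, Z))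
    (fun _ _ => sym_nonneg Γ (kap_nonneg h0) _) (Finset.mem_univ Z)

theorem kapb_le_sigb (h0 : ∀ U, 0 ≤ ν U) (U Z : Finset X) :
    sym Γ (kap ν) (U, Z) ≤ sym Γ (sig ν) Z := by
  rw [← sum_kapb_fst Γ]
  exact Finset.single_le_sum (f := fun U => sym Γ (kap ν) (U, Z))
    (fun _ _ => sym_nonneg Γ (kap_nonneg h0) _) (Finset.mem_univ U)

theorem subset_of_kapb_pos (h0 : ∀ U, 0 ≤ ν U) {U Z : Finset X}
    (h : 0 < sym Γ (kap ν) (U, Z)) : Z ⊆ U := by
  obtain ⟨γ, hγ⟩ := exists_of_sym_pos Γ (kap_nonneg h0) h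
  obtain ⟨x, hx, -⟩ := exists_of_push_pos _ (fun x => mul_nonneg (h0 _) (h0 _)) hγ
  have h1 : x.1 = γ • U := congrArg Prod.fst hx
  have h2 : x.1 ∩ x.2 = γ • Z := congrArg Prod.snd hx
  rw [← Finset.smul_finset_subset_smul_finset_iff (a := γ), ← h1, ← h2]
  exact Finset.inter_subset_left

theorem rho_pos_iff (h0 : ∀ U, 0 ≤ ν U) {x : Finset X × Finset X} (h : 0 < rho Γ ν x) :
    0 < ν x.1 ∧ 0 < sym Γ (kap ν) x := by
  unfold rho at h
  refine ⟨lt_of_le_of_ne (h0 _) ?_, lt_of_le_of_ne (sym_nonneg Γ (kap_nonneg h0) _) ?_⟩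
  · intro h1; rw [← h1] at h; simp at h
  · intro h1; rw [← h1] at h; simp at h

theorem push_fst_rho (h0 : ∀ U, 0 ≤ ν U) (hs : ∑ U, ν U = 1) : push Prod.fst (rho Γ ν) = ν := by
  funext U
  unfold push
  rw [Fintype.sum_prod_type, Finset.sum_eq_single U]
  · simp only [if_true, rho]
    rw [← Finset.mul_sum, ← Finset.sum_div, sum_kapb_snd Γ hs]
    rcases (h0 U).eq_or_lt with h | h
    · rw [← h]; simp
    · rw [div_self (sym_pos Γ h0 h).ne', mul_one]
  · intro V _ hV; simp [hV]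
  · simp

theorem sum_rho_mul (h0 : ∀ U, 0 ≤ ν U) (hs : ∑ U, ν U = 1) (φ : Finset X × Finset X → ℝ)
    (hφ : ∀ (g : Γ) x, φ (g • x) = φ x) :
    ∑ x, rho Γ ν x * φ x = ∑ x, sym Γ (kap ν) x * φ x := by
  have h1 := sum_sym_mul (Γ := Γ) ν
    (fun U => ∑ Z, sym Γ (kap ν) (U, Z) / sym Γ ν U * φ (U, Z)) (by
      intro g U
      refine (Fintype.sum_equiv (MulAction.toPerm g) _ _ (fun Z => ?_)).symm
      simp only [MulAction.toPerm_apply]
      rw [← Prod.smul_mk, sym_smul, sym_smul, hφ])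
  rw [Fintype.sum_prod_type, Fintype.sum_prod_type]
  have h2 : ∀ U, ∑ Z, rho Γ ν (U, Z) * φ (U, Z)
      = ν U * ∑ Z, sym Γ (kap ν) (U, Z) / sym Γ ν U * φ (U, Z) := by
    intro U
    rw [Finset.mul_sum]
    exact Finset.sum_congr rfl fun Z _ => by unfold rho; ring
  simp_rw [h2]
  rw [← h1]
  refine Finset.sum_congr rfl fun U _ => ?_
  rw [Finset.mul_sum]
  refine Finset.sum_congr rfl fun Z _ => ?_
  rcases (sym_nonneg Γ h0 U).eq_or_lt with h | h
  · have h3 : sym Γ (kap ν) (U, Z) = 0 :=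
      le_antisymm (h ▸ kapb_le_nub Γ h0 hs U Z) (sym_nonneg Γ (kap_nonneg h0) _)
    rw [h3]; simp
  · field_simp

theorem sum_rho (h0 : ∀ U, 0 ≤ ν U) (hs : ∑ U, ν U = 1) : ∑ x, rho Γ ν x = 1 := by
  rw [← sum_push Prod.fst, push_fst_rho Γ h0 hs, hs]

theorem sum_sig (hs : ∑ U, ν U = 1) : ∑ x, sig ν x = 1 := by
  unfold sig; rw [sum_push, sum_w1 hs]

theorem ent_sym_eq {A : Type*} [Fintype A] [MulAction Γ A] (ρ : A → ℝ) :
    ent (sym Γ ρ) = -∑ a, ρ a * log (sym Γ ρ a) := by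
  unfold ent
  rw [sum_sym_mul ρ (fun a => log (sym Γ ρ a)) (fun g a => by rw [sym_smul])]

/-- Step 1. -/
theorem J_union_le (h0 : ∀ U, 0 ≤ ν U) (hs : ∑ U, ν U = 1) :
    J Γ (push (fun x : Finset X × Finset X => x.1 ∪ x.2) (fun x => ν x.1 * ν x.2))
      ≤ -2 * ent ν + 2 * ent (sym Γ (kap ν)) - ent (sym Γ (sig ν)) := by
  have hw : ∀ x : Finset X × Finset X, 0 ≤ ν x.1 * ν x.2 := fun x => mul_nonneg (h0 _) (h0 _)
  have hk := sym_nonneg Γ (kap_nonneg h0)
  have hsg := sym_nonneg Γ (sig_nonneg h0)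
  have p1 : ∀ x : Finset X × Finset X, 0 < ν x.1 * ν x.2 →
      0 < sym Γ (kap ν) (x.1, x.1 ∩ x.2) := fun x hx =>
    sym_pos Γ (kap_nonneg h0) (lt_of_lt_of_le hx
      (le_push (fun x : Finset X × Finset X => (x.1, x.1 ∩ x.2)) hw x))
  have p2 : ∀ x : Finset X × Finset X, 0 < ν x.1 * ν x.2 →
      0 < sym Γ (kap ν) (x.2, x.1 ∩ x.2) := fun x hx => by
    have := p1 (x.2, x.1) (by simpa [mul_comm] using hx)
    simpa [Finset.inter_comm] using this
  have p3 : ∀ x : Finset X × Finset X, 0 < ν x.1 * ν x.2 →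
      0 < sym Γ (sig ν) (x.1 ∩ x.2) := fun x hx =>
    lt_of_lt_of_le (p1 x hx) (kapb_le_sigb Γ h0 _ _)
  refine le_trans (J_push_le (Γ := Γ) (fun x : Finset X × Finset X => x.1 ∪ x.2)
    (fun g x => by simp [Finset.smul_finset_union]) (fun x => ν x.1 * ν x.2)
    (fun x => sym Γ (kap ν) (x.1, x.1 ∩ x.2) * sym Γ (kap ν) (x.2, x.1 ∩ x.2)
      / sym Γ (sig ν) (x.1 ∩ x.2)) hw
    (fun x => div_nonneg (mul_nonneg (hk _) (hk _)) (hsg _))
    (fun x hx => div_pos (mul_pos (p1 x hx) (p2 x hx)) (p3 x hx)) ?_ ?_) (le_of_eq ?_)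
  · intro g x
    simp only [Prod.smul_fst, Prod.smul_snd]
    rw [← Finset.smul_finset_inter, ← Prod.smul_mk, ← Prod.smul_mk, sym_smul, sym_smul, sym_smul]
  · rw [sum_w1 hs]
    calc ∑ x : Finset X × Finset X, sym Γ (kap ν) (x.1, x.1 ∩ x.2)
            * sym Γ (kap ν) (x.2, x.1 ∩ x.2) / sym Γ (sig ν) (x.1 ∩ x.2)
        ≤ ∑ x : Finset X × Finset X, ∑ Z, sym Γ (kap ν) (x.1, Z)
            * sym Γ (kap ν) (x.2, Z) / sym Γ (sig ν) Z :=
          Finset.sum_le_sum fun x _ => Finset.single_le_sum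
            (f := fun Z => sym Γ (kap ν) (x.1, Z) * sym Γ (kap ν) (x.2, Z) / sym Γ (sig ν) Z)
            (fun Z _ => div_nonneg (mul_nonneg (hk _) (hk _)) (hsg _)) (Finset.mem_univ _)
      _ = ∑ Z, sym Γ (sig ν) Z * sym Γ (sig ν) Z / sym Γ (sig ν) Z := by
          rw [Finset.sum_comm]
          refine Finset.sum_congr rfl fun Z _ => ?_
          rw [← Finset.sum_div, Fintype.sum_prod_type]
          simp only
          rw [← Finset.sum_mul_sum, sum_kapb_fst]
      _ = ∑ Z, sym Γ (sig ν) Z := by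
          refine Finset.sum_congr rfl fun Z _ => ?_
          rcases (hsg Z).eq_or_lt with h | h
          · rw [← h]; simp
          · field_simp
      _ ≤ 1 := by rw [sum_sym, sum_sig hs]
  · have e1 : ent (sym Γ (kap ν))
        = -∑ x : Finset X × Finset X, ν x.1 * ν x.2 * log (sym Γ (kap ν) (x.1, x.1 ∩ x.2)) := by
      rw [ent_sym_eq]
      congr 1
      exact sum_push_mul _ _ (fun y => log (sym Γ (kap ν) y))
    have e2 : ent (sym Γ (kap ν))
        = -∑ x : Finset X × Finset X, ν x.1 * ν x.2 * log (sym Γ (kap ν) (x.2, x.1 ∩ x.2)) := by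
      rw [e1]
      congr 1
      refine Fintype.sum_equiv (Equiv.prodComm _ _) _ _ (fun x => ?_)
      simp [mul_comm, Finset.inter_comm]
    have e3 : ent (sym Γ (sig ν))
        = -∑ x : Finset X × Finset X, ν x.1 * ν x.2 * log (sym Γ (sig ν) (x.1 ∩ x.2)) := by
      rw [ent_sym_eq]
      congr 1
      exact sum_push_mul _ _ (fun y => log (sym Γ (sig ν) y))
    have e4 : ent ν = -∑ x : Finset X × Finset X, ν x.1 * ν x.2 * log (ν x.1) := by
      have := sum_prod_mul ν (fun U => log (ν U)) (fun _ => 1)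
      simp only [mul_one, hs] at this
      rw [this]; rfl
    have e5 : ent ν = -∑ x : Finset X × Finset X, ν x.1 * ν x.2 * log (ν x.2) := by
      have := sum_prod_mul ν (fun _ => 1) (fun U => log (ν U))
      simp only [mul_one, hs, one_mul] at this
      rw [this]; rfl
    have e6 : ∑ x : Finset X × Finset X, ν x.1 * ν x.2 * (log (ν x.1 * ν x.2)
          - log (sym Γ (kap ν) (x.1, x.1 ∩ x.2) * sym Γ (kap ν) (x.2, x.1 ∩ x.2)
            / sym Γ (sig ν) (x.1 ∩ x.2)))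
        = ∑ x : Finset X × Finset X, ν x.1 * ν x.2 * log (ν x.1)
          + ∑ x : Finset X × Finset X, ν x.1 * ν x.2 * log (ν x.2)
          - ∑ x : Finset X × Finset X, ν x.1 * ν x.2 * log (sym Γ (kap ν) (x.1, x.1 ∩ x.2))
          - ∑ x : Finset X × Finset X, ν x.1 * ν x.2 * log (sym Γ (kap ν) (x.2, x.1 ∩ x.2))
          + ∑ x : Finset X × Finset X, ν x.1 * ν x.2 * log (sym Γ (sig ν) (x.1 ∩ x.2)) := by
      rw [← Finset.sum_add_distrib, ← Finset.sum_sub_distrib, ← Finset.sum_sub_distrib,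
        ← Finset.sum_add_distrib]
      refine Finset.sum_congr rfl fun x _ => ?_
      rcases (hw x).eq_or_lt with h | h
      · rw [← h]; simp
      · have h1 : ν x.1 ≠ 0 := left_ne_zero_of_mul h.ne'
        have h2 : ν x.2 ≠ 0 := right_ne_zero_of_mul h.ne'
        rw [Real.log_mul h1 h2, Real.log_div (mul_pos (p1 x h) (p2 x h)).ne' (p3 x h).ne',
          Real.log_mul (p1 x h).ne' (p2 x h).ne']
        ring
    rw [e6]
    linarith

theorem ent_rho (h0 : ∀ U, 0 ≤ ν U) (hs : ∑ U, ν U = 1) :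
    ent (rho Γ ν) = ent ν + ent (sym Γ (kap ν)) - ent (sym Γ ν) := by
  have e1 : ∑ x, rho Γ ν x * log (ν x.1) = -ent ν := by
    rw [← sum_push_mul Prod.fst (rho Γ ν) (fun U => log (ν U)), push_fst_rho Γ h0 hs]
    simp [ent]
  have e2 : ∑ x, rho Γ ν x * log (sym Γ ν x.1) = -ent (sym Γ ν) := by
    rw [← sum_push_mul Prod.fst (rho Γ ν) (fun U => log (sym Γ ν U)), push_fst_rho Γ h0 hs,
      ent_sym_eq]
    simp
  have e3 : ∑ x, rho Γ ν x * log (sym Γ (kap ν) x) = -ent (sym Γ (kap ν)) := by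
    rw [sum_rho_mul Γ h0 hs _ (fun g x => by rw [sym_smul])]
    simp [ent]
  have e4 : ∑ x, rho Γ ν x * log (rho Γ ν x) = ∑ x, rho Γ ν x * log (ν x.1)
      + ∑ x, rho Γ ν x * log (sym Γ (kap ν) x) - ∑ x, rho Γ ν x * log (sym Γ ν x.1) := by
    rw [← Finset.sum_add_distrib, ← Finset.sum_sub_distrib]
    refine Finset.sum_congr rfl fun x _ => ?_
    rcases (rho_nonneg Γ h0 x).eq_or_lt with h | h
    · rw [← h]; simp
    · obtain ⟨h1, h2⟩ := rho_pos_iff Γ h0 h
      have h3 := sym_pos Γ h0 h1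
      have : log (rho Γ ν x) = log (ν x.1) + log (sym Γ (kap ν) x) - log (sym Γ ν x.1) := by
        unfold rho
        rw [Real.log_mul h1.ne' (div_pos h2 h3).ne', Real.log_div h2.ne' h3.ne']
        ring
      rw [this]; ring
  have e5 : ent (rho Γ ν) = -∑ x, rho Γ ν x * log (rho Γ ν x) := rfl
  linarith

theorem J_mu_le (h0 : ∀ U, 0 ≤ ν U) (hs : ∑ U, ν U = 1) :
    J Γ (push Prod.snd (rho Γ ν)) ≤ ent (sym Γ (sig ν)) - ent (push Prod.snd (rho Γ ν)) := by
  refine le_trans (J_le _ (sym Γ (sig ν)) (push_nonneg _ (rho_nonneg Γ h0))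
    (sym_nonneg Γ (sig_nonneg h0)) ?_ (fun g a => sym_smul _ g a) ?_) (le_of_eq ?_)
  · intro Z hZ
    obtain ⟨x, rfl, hx⟩ := exists_of_push_pos _ (rho_nonneg Γ h0) hZ
    exact lt_of_lt_of_le (rho_pos_iff Γ h0 hx).2 (kapb_le_sigb Γ h0 x.1 x.2)
  · rw [sum_sym, sum_sig hs, sum_push, sum_rho Γ h0 hs]
  · have e1 : ∑ Z, push Prod.snd (rho Γ ν) Z * log (sym Γ (sig ν) Z)
        = -ent (sym Γ (sig ν)) := by
      rw [sum_push_mul Prod.snd (rho Γ ν) (fun Z => log (sym Γ (sig ν) Z)),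
        sum_rho_mul Γ h0 hs _ (fun g x => by simp only [Prod.smul_snd]; rw [sym_smul]),
        sum_sym_mul _ _ (fun g x => by simp only [Prod.smul_snd]; rw [sym_smul]),
        ← sum_push_mul Prod.snd (kap ν) (fun Z => log (sym Γ (sig ν) Z)), push_snd_kap,
        ent_sym_eq]
      simp
    simp_rw [mul_sub]
    rw [Finset.sum_sub_distrib, e1]
    unfold ent; ring

theorem size_mu (h0 : ∀ U, 0 ≤ ν U) (hs : ∑ U, ν U = 1) :
    size (push Prod.snd (rho Γ ν)) = size (sig ν) := by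
  unfold size
  rw [sum_push_mul Prod.snd (rho Γ ν) (fun Z => (Z.card : ℝ)),
    sum_rho_mul Γ h0 hs _ (fun g x => by simp),
    sum_sym_mul _ _ (fun g x => by simp),
    ← sum_push_mul Prod.snd (kap ν) (fun Z => (Z.card : ℝ)), push_snd_kap]

/-- Step 3a: extremality applied to the conditional laws. -/
theorem cond_W_le {H : Finset X} {c : ℝ} (hν : IsLaw H ν)
    (hmax : ∀ μ, IsLaw H μ → Psi Γ c μ ≤ Psi Γ c ν) :
    ∑ e, ∑ x, rho Γ ν x * phi (cE (rho Γ ν) Prod.snd (fun x => ind (decide (e ∈ x.1))) x.2)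
      ≤ Wf ν + ent ν - ent (rho Γ ν) + ent (push Prod.snd (rho Γ ν)) := by
  obtain ⟨h0, hs, hH⟩ := hν
  set ρ := rho Γ ν with hρ
  set μ := push Prod.snd ρ with hμ
  have hρ0 : ∀ x, 0 ≤ ρ x := rho_nonneg Γ h0
  have hμ0 : ∀ Z, 0 ≤ μ Z := push_nonneg _ hρ0
  have hμe : ∀ Z, μ Z = ∑ U, ρ (U, Z) := by
    intro Z
    simp only [hμ, push]
    rw [Fintype.sum_prod_type]
    exact Finset.sum_congr rfl fun U _ => by simp
  have hz : ∀ Z, μ Z = 0 → ∀ U, ρ (U, Z) = 0 := fun Z h U =>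
    le_antisymm (h ▸ le_push Prod.snd hρ0 (U, Z)) (hρ0 _)
  have key : ∀ Z, μ Z * ∑ e, phi (cE ρ Prod.snd (fun x => ind (decide (e ∈ x.1))) Z)
      ≤ μ Z * Psi Γ c ν - c * ∑ U, ρ (U, Z) * U.card
        + ∑ U, ρ (U, Z) * (log (ρ (U, Z)) - log (μ Z) - log (sym Γ ν U)) := by
    intro Z
    rcases (hμ0 Z).eq_or_lt with h | h
    · simp [← h, hz Z h.symm]
    · have hlaw : IsLaw H (fun U => ρ (U, Z) / μ Z) := by
        refine ⟨fun U => div_nonneg (hρ0 _) h.le, ?_, ?_⟩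
        · rw [← Finset.sum_div, ← hμe, div_self h.ne']
        · intro U hU
          exact hH U (rho_pos_iff Γ h0 ((div_pos_iff_of_pos_right h).mp hU)).1
      have h1 := hmax _ hlaw
      have h2 := J_le (Γ := Γ) (fun U => ρ (U, Z) / μ Z) (sym Γ ν) hlaw.1 (sym_nonneg Γ h0)
        (fun U hU => sym_pos Γ h0 (rho_pos_iff Γ h0 ((div_pos_iff_of_pos_right h).mp hU)).1)
        (fun g a => sym_smul _ g a) (by rw [sum_sym, hs, hlaw.2.1])
      have h3 : Wf (fun U => ρ (U, Z) / μ Z)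
          = ∑ e, phi (cE ρ Prod.snd (fun x => ind (decide (e ∈ x.1))) Z) := by
        unfold Wf marg cE
        refine Finset.sum_congr rfl fun e _ => ?_
        congr 1
        rw [← hμ, push, Fintype.sum_prod_type, Finset.sum_div]
        refine Finset.sum_congr rfl fun U _ => ?_
        simp only [Finset.sum_ite_eq', Finset.mem_univ, if_true]
        ring
      have h4 : μ Z * size (fun U => ρ (U, Z) / μ Z) = ∑ U, ρ (U, Z) * U.card := by
        unfold size
        rw [Finset.mul_sum]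
        exact Finset.sum_congr rfl fun U _ => by field_simp
      have h5 : μ Z * ∑ U, ρ (U, Z) / μ Z * (log (ρ (U, Z) / μ Z) - log (sym Γ ν U))
          = ∑ U, ρ (U, Z) * (log (ρ (U, Z)) - log (μ Z) - log (sym Γ ν U)) := by
        rw [Finset.mul_sum]
        refine Finset.sum_congr rfl fun U _ => ?_
        rcases (hρ0 (U, Z)).eq_or_lt with h6 | h6
        · rw [← h6]; simp
        · rw [Real.log_div h6.ne' h.ne']
          field_simp
      rw [← h3, ← h4, ← h5]
      have h7 : Wf (fun U => ρ (U, Z) / μ Z) ≤ Psi Γ c ν - c * size (fun U => ρ (U, Z) / μ Z)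
          + ∑ U, ρ (U, Z) / μ Z * (log (ρ (U, Z) / μ Z) - log (sym Γ ν U)) := by
        unfold Psi at h1 ⊢
        linarith
      have h8 := mul_le_mul_of_nonneg_left h7 h.le
      linarith
  have h1 := Finset.sum_le_sum (s := Finset.univ) (fun Z _ => key Z)
  have e1 : ∑ Z, μ Z * ∑ e, phi (cE ρ Prod.snd (fun x => ind (decide (e ∈ x.1))) Z)
      = ∑ e, ∑ x, ρ x * phi (cE ρ Prod.snd (fun x => ind (decide (e ∈ x.1))) x.2) := by
    simp_rw [Finset.mul_sum]
    rw [Finset.sum_comm]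
    refine Finset.sum_congr rfl fun e _ => ?_
    exact sum_push_mul Prod.snd ρ
      (fun Z => phi (cE ρ Prod.snd (fun x => ind (decide (e ∈ x.1))) Z))
  have e2 : ∑ Z, μ Z = 1 := by rw [hμ, sum_push, sum_rho Γ h0 hs]
  have e3 : ∑ Z, ∑ U, ρ (U, Z) * (U.card : ℝ) = size ν := by
    rw [Finset.sum_comm, ← Fintype.sum_prod_type (f := fun x => ρ x * (x.1.card : ℝ)),
      ← sum_push_mul Prod.fst ρ (fun U => (U.card : ℝ)), push_fst_rho Γ h0 hs]
    rfl
  have e4 : ∑ Z, ∑ U, ρ (U, Z) * (log (ρ (U, Z)) - log (μ Z) - log (sym Γ ν U))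
      = -ent ρ + ent μ + ent (sym Γ ν) := by
    rw [Finset.sum_comm, ← Fintype.sum_prod_type
      (f := fun x => ρ x * (log (ρ x) - log (μ x.2) - log (sym Γ ν x.1)))]
    simp_rw [mul_sub]
    rw [Finset.sum_sub_distrib, Finset.sum_sub_distrib,
      ← sum_push_mul Prod.fst ρ (fun U => log (sym Γ ν U)), push_fst_rho Γ h0 hs,
      ← sum_push_mul Prod.snd ρ (fun Z => log (μ Z)), ent_sym_eq]
    unfold ent; ring
  rw [e1, Finset.sum_add_distrib, Finset.sum_sub_distrib, ← Finset.sum_mul, ← Finset.mul_sum,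
    e2, e3, e4] at h1
  unfold Psi J at h1
  linarith

theorem max_le_log_two {H : Finset X} {lam : ℝ} (hν : IsLaw H ν)
    (hmax : ∀ μ, IsLaw H μ → Psi Γ (lam - 33) μ ≤ Psi Γ (lam - 33) ν)
    (hS : ∀ Z ⊆ H, sym Γ (sig ν) Z ≤ 2 * exp (-(lam * Z.card))) :
    Psi Γ (lam - 33) ν ≤ log 2 := by
  have hC := cond_W_le Γ hν hmax
  obtain ⟨h0, hs, hH⟩ := hν
  have hw : ∀ x : Finset X × Finset X, 0 ≤ ν x.1 * ν x.2 := fun x => mul_nonneg (h0 _) (h0 _)
  have hρ0 := rho_nonneg Γ h0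
  -- the union
  have hA := hmax (push (fun x : Finset X × Finset X => x.1 ∪ x.2) (fun x => ν x.1 * ν x.2)) (by
    refine ⟨push_nonneg _ hw, by rw [sum_push, sum_w1 hs], fun V hV => ?_⟩
    obtain ⟨x, rfl, hx⟩ := exists_of_push_pos _ hw hV
    refine Finset.union_subset (hH _ (lt_of_le_of_ne (h0 _) ?_)) (hH _ (lt_of_le_of_ne (h0 _) ?_))
    · exact (left_ne_zero_of_mul hx.ne').symm
    · exact (right_ne_zero_of_mul hx.ne').symm)
  have hA1 := J_union_le Γ h0 hs
  have hs2 : size (sig ν) = ∑ e, marg ν e ^ 2 := by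
    rw [size_eq]; unfold sig; simp_rw [marg_inter]
  have hA2 : size (push (fun x : Finset X × Finset X => x.1 ∪ x.2) (fun x => ν x.1 * ν x.2))
      = 2 * size ν - size (sig ν) := by
    rw [size_eq, hs2, size_eq, Finset.mul_sum, ← Finset.sum_sub_distrib]
    simp_rw [marg_union ν hs]
  have hA3 : 5 / 2 * Wf ν - 3 * size (sig ν)
      ≤ Wf (push (fun x : Finset X × Finset X => x.1 ∪ x.2) (fun x => ν x.1 * ν x.2)) := by
    unfold Wf
    rw [hs2, Finset.mul_sum, Finset.mul_sum, ← Finset.sum_sub_distrib]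
    simp_rw [marg_union ν hs]
    exact Finset.sum_le_sum fun e _ => phi_union (marg_nonneg h0 e) (marg_le_one h0 hs e)
  -- the lower bound for the entropy of the symmetrised intersection
  have hB : lam * size (sig ν) - log 2 ≤ ent (sym Γ (sig ν)) := by
    rw [ent_sym_eq]
    have : lam * size (sig ν) - log 2 = ∑ Z, sig ν Z * (lam * Z.card - log 2) := by
      simp_rw [mul_sub]
      rw [Finset.sum_sub_distrib, ← Finset.sum_mul, sum_sig hs, size, Finset.mul_sum, one_mul]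
      congr 1
      exact Finset.sum_congr rfl fun Z _ => by ring
    rw [this, ← Finset.sum_neg_distrib]
    refine Finset.sum_le_sum fun Z _ => ?_
    rcases (sig_nonneg h0 Z).eq_or_lt with h | h
    · rw [← h]; simp
    · have h1 : Z ⊆ H := by
        obtain ⟨x, rfl, hx⟩ := exists_of_push_pos _ hw h
        exact Finset.inter_subset_left.trans
          (hH _ (lt_of_le_of_ne (h0 _) (left_ne_zero_of_mul hx.ne').symm))
      have h2 := Real.log_le_log (sym_pos Γ (sig_nonneg h0) h) (hS Z h1)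
      rw [Real.log_mul (by norm_num) (Real.exp_pos _).ne', Real.log_exp] at h2
      nlinarith
  -- the resampled intersection
  have hD := hmax (push Prod.snd (rho Γ ν)) (by
    refine ⟨push_nonneg _ hρ0, by rw [sum_push, sum_rho Γ h0 hs], fun Z hZ => ?_⟩
    obtain ⟨x, rfl, hx⟩ := exists_of_push_pos _ hρ0 hZ
    obtain ⟨h1, h2⟩ := rho_pos_iff Γ h0 hx
    exact (subset_of_kapb_pos Γ h0 h2).trans (hH _ h1))
  have hD1 := J_mu_le Γ h0 hs
  have hD2 := size_mu Γ h0 hs
  have hD3 := Wf_nonneg (push_nonneg Prod.snd hρ0)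
  have hE := ent_rho Γ h0 hs
  have hR := reveal (rho Γ ν) hρ0 (sum_rho Γ h0 hs) Prod.fst Prod.snd
    (fun x hx => subset_of_kapb_pos Γ h0 (rho_pos_iff Γ h0 hx).2) (θ := 1 / 4) (by norm_num)
  have hR1 : ∑ x, rho Γ ν x * (x.2.card : ℝ) = size (sig ν) := by
    rw [← hD2, size, sum_push_mul Prod.snd (rho Γ ν) (fun Z => (Z.card : ℝ))]
  rw [hR1, ← ent_push (rho Γ ν) Prod.fst, ← ent_push (rho Γ ν) Prod.snd, push_fst_rho Γ h0 hs,
    show Hv (rho Γ ν) (fun x => (x.1, x.2)) = ent (rho Γ ν) from Hv_id _] at hR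
  have hs0 : 0 ≤ size (sig ν) := by rw [hs2]; positivity
  have hW0 := Wf_nonneg h0
  have hlog : -log (1 / 4) ≤ 3 / 2 := by
    rw [one_div, Real.log_inv, neg_neg, show (4 : ℝ) = 2 ^ 2 by norm_num, Real.log_pow]
    have := Real.log_two_lt_d9
    push_cast; linarith
  have hlog2 := mul_le_mul_of_nonneg_right hlog hs0
  unfold Psi at hA hD ⊢
  rw [hA2] at hA
  rw [hD2] at hD
  have hJ : J Γ ν = ent (sym Γ ν) - ent ν := rfl
  linarith

end Main

/-- The spread bound. -/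
theorem spread_of_orbits (H : Finset X) {p : ℝ} (hp : 0 < p)
    (hS : ∀ Z ⊆ H, 1 / 2 ≤ ((Finset.univ.image (fun g : Γ => g • Z)).card : ℝ) * p ^ Z.card)
    (T : Finset X) :
    ((Finset.univ.filter (fun g : Γ => T ⊆ g • H)).card : ℝ) / Fintype.card Γ
      ≤ 2 * (exp 33 * p) ^ T.card := by
  obtain ⟨ν, hν, hmax⟩ := exists_max Γ H (-log p - 33)
  have hM := max_le_log_two Γ hν hmax (by
    intro Z hZ
    have h1 := hS Z hZ
    have h2 : ((Finset.univ.image (fun g : Γ => g • Z)).card : ℝ) * sym Γ (sig ν) Z ≤ 1 := by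
      calc ((Finset.univ.image (fun g : Γ => g • Z)).card : ℝ) * sym Γ (sig ν) Z
          = ∑ Z' ∈ Finset.univ.image (fun g : Γ => g • Z), sym Γ (sig ν) Z' := by
            rw [Finset.sum_congr rfl (g := fun _ => sym Γ (sig ν) Z)]
            · simp
            · intro Z' hZ'
              obtain ⟨g, -, rfl⟩ := Finset.mem_image.mp hZ'
              exact sym_smul _ _ _
        _ ≤ ∑ Z', sym Γ (sig ν) Z' :=
            Finset.sum_le_sum_of_subset_of_nonneg (Finset.subset_univ _)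
              (fun Z' _ _ => sym_nonneg Γ (sig_nonneg hν.1) Z')
        _ = 1 := by rw [sum_sym, sum_sig hν.2.1]
    have h3 : exp (-(-log p * Z.card)) = p ^ Z.card := by
      rw [neg_mul, neg_neg, mul_comm, Real.exp_nat_mul, Real.exp_log hp]
    rw [h3]
    have h4 := sym_nonneg Γ (sig_nonneg hν.1) Z
    have h5 : 0 < p ^ Z.card := pow_pos hp _
    nlinarith)
  set o : Finset X → ℝ := sym Γ (fun U => if U = T then 1 else 0) with ho
  have ho0 : ∀ U, 0 ≤ o U := sym_nonneg Γ (fun U => by split_ifs <;> norm_num)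
  have ho1 : ∑ U, o U = 1 := by rw [ho, sum_sym]; simp
  set P0 : ℝ := ∑ U, if U ⊆ H then o U else 0 with hP0
  have hP : ((Finset.univ.filter (fun g : Γ => T ⊆ g • H)).card : ℝ) / Fintype.card Γ = P0 := by
    simp only [hP0, ho, sym]
    have : ∀ U : Finset X, (if U ⊆ H then (∑ γ : Γ, if γ • U = T then (1 : ℝ) else 0)
        / Fintype.card Γ else 0)
        = (∑ γ : Γ, if U = γ⁻¹ • T then (if U ⊆ H then (1 : ℝ) else 0) else 0)
          / Fintype.card Γ := by
      intro U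
      split_ifs
      · simp_rw [eq_inv_smul_iff]
      · simp
    simp_rw [this]
    rw [← Finset.sum_div, Finset.sum_comm]
    congr 1
    simp only [Finset.sum_ite_eq', Finset.mem_univ, if_true, Finset.card_filter]
    push_cast
    refine Finset.sum_congr rfl fun g _ => ?_
    simp only [Finset.subset_smul_finset_iff]
  rw [hP]
  have hP00 : 0 ≤ P0 := Finset.sum_nonneg fun U _ => by split_ifs; exacts [ho0 U, le_rfl]
  rcases hP00.eq_or_lt with h | h
  · rw [← h]; positivity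
  have hlaw : IsLaw H (fun U => (if U ⊆ H then o U else 0) / P0) := by
    refine ⟨fun U => div_nonneg (by split_ifs; exacts [ho0 U, le_rfl]) h.le, ?_, ?_⟩
    · rw [← Finset.sum_div, div_self h.ne']
    · intro U hU
      by_contra hc
      simp [hc] at hU
  have h1 := hmax _ hlaw
  have hpos : ∀ U, 0 < (if U ⊆ H then o U else 0) / P0 → U ⊆ H ∧ 0 < o U := by
    intro U hU
    have := hlaw.2.2 U hU
    simp only [this, if_true] at hU
    exact ⟨this, (div_pos_iff_of_pos_right h).mp hU⟩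
  have h2 := J_le (Γ := Γ) _ o hlaw.1 ho0 (fun U hU => (hpos U hU).2)
    (fun g a => sym_smul _ g a) (by rw [ho1, hlaw.2.1])
  have h3 : ∑ U, (if U ⊆ H then o U else 0) / P0
      * (log ((if U ⊆ H then o U else 0) / P0) - log (o U)) = -log P0 := by
    rw [← one_mul (-log P0), ← hlaw.2.1, Finset.sum_mul]
    refine Finset.sum_congr rfl fun U _ => ?_
    rcases (hlaw.1 U).eq_or_lt with h4 | h4
    · simp only [← h4]; simp
    · obtain ⟨h5, h6⟩ := hpos U h4
      simp only [h5, if_true]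
      rw [Real.log_div h6.ne' h.ne']
      ring
  have h4 : size (fun U => (if U ⊆ H then o U else 0) / P0) = T.card := by
    unfold size
    rw [← one_mul (T.card : ℝ), ← hlaw.2.1, Finset.sum_mul]
    refine Finset.sum_congr rfl fun U _ => ?_
    rcases (hlaw.1 U).eq_or_lt with h4 | h4
    · simp only [← h4]; simp
    · obtain ⟨γ, hγ⟩ := exists_of_sym_ne_zero Γ (hpos U h4).2.ne'
      have : γ • U = T := by
        by_contra hc
        simp [hc] at hγ
      rw [← this, Finset.card_smul_finset]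
  have h5 := Wf_nonneg hlaw.1
  have h6 : log P0 ≤ log 2 + (33 + log p) * T.card := by
    unfold Psi at h1 hM
    rw [h4] at h1
    linarith
  have h7 : (2 : ℝ) * (exp 33 * p) ^ T.card = exp (log 2 + (33 + log p) * T.card) := by
    rw [Real.exp_add, Real.exp_log (by norm_num), mul_comm (33 + log p), Real.exp_nat_mul,
      Real.exp_add, Real.exp_log hp]
  rw [h7, ← Real.exp_log h]
  exact Real.exp_le_exp.mpr h6

end Crest.Agent.R55
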