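import Crest.Agent.R52.Convex

/-! The spread lemma by minimal fragments. -/

set_option autoImplicit false
set_option linter.unusedSectionVars false

namespace Crest.Agent.R55
open Finset Crest.FinProb Crest.Agent.R52

variable {X : Type} [Fintype X] [DecidableEq X]

/-- Weight of a subset under independent coins. -/
noncomputable def wt (q : ℝ) (W : Finset X) : ℝ :=
  q ^ W.card * (1 - q) ^ (Fintype.card X - W.card)

theorem wt_nonneg' {q : ℝ} (h0 : 0 ≤ q) (h1 : q ≤ 1) (W : Finset X) : 0 ≤ wt q W :=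
  mul_nonneg (pow_nonneg h0 _) (pow_nonneg (by linarith) _)

theorem Ex_toSet (q : ℝ) (F : Finset X → ℝ) :
    Ex q (fun ω : X → Bool => F (toSet ω)) = ∑ W, wt q W * F W := by
  unfold Ex
  refine Finset.sum_bij (fun ω _ => toSet ω) (fun _ _ => Finset.mem_univ _) ?_ ?_ ?_
  · intro ω _ ω' _ h
    funext a
    have := Finset.ext_iff.mp h a
    simp only [toSet, mem_filter, mem_univ, true_and] at this
    exact Bool.eq_iff_iff.mpr this
  · intro S _
    exact ⟨fun a => decide (a ∈ S), Finset.mem_univ _, by ext a; simp [toSet]⟩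
  · intro ω _
    congr 1
    unfold bernoulliWeight wt
    rw [Finset.prod_ite, Finset.prod_const, Finset.prod_const]
    congr 2
    have := Finset.card_filter_add_card_filter_not (s := univ) (fun a => ω a = true)
    rw [Finset.card_univ] at this
    unfold toSet; omega

theorem sum_wt' (q : ℝ) : ∑ W : Finset X, wt q W = 1 := by
  have := Ex_toSet (X := X) q (fun _ => 1)
  rw [Ex_const] at this
  simpa using this.symm

theorem Ex_or (p q : ℝ) (h : (X → Bool) → ℝ) :
    Ex p (fun ω : X → Bool => Ex q (fun ω' : X → Bool => h (fun a => ω a || ω' a)))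
      = Ex (p + q - p * q) h := by
  have e1 : ∀ ω ω' : X → Bool, h (fun a => ω a || ω' a)
      = ∑ η : X → Bool, h η * ∏ a, (if (ω a || ω' a) = η a then (1 : ℝ) else 0) := by
    intro ω ω'
    rw [Finset.sum_eq_single (fun a => ω a || ω' a)]
    · simp
    · intro η _ hη
      obtain ⟨a, ha⟩ := Function.ne_iff.mp hη
      rw [Finset.prod_eq_zero (Finset.mem_univ a), mul_zero]
      rw [if_neg (Ne.symm ha)]
    · simp
  simp_rw [e1, Ex_sum, Ex_const_mul]
  have e2 : ∀ (η ω : X → Bool),
      Ex q (fun ω' : X → Bool => ∏ a, (if (ω a || ω' a) = η a then (1 : ℝ) else 0))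
      = ∏ a, (q * (if (ω a || true) = η a then (1 : ℝ) else 0)
          + (1 - q) * (if (ω a || false) = η a then (1 : ℝ) else 0)) := fun η ω =>
    Ex_prod q (fun a b => if (ω a || b) = η a then (1 : ℝ) else 0)
  simp_rw [e2]
  conv_rhs => unfold Ex
  refine Finset.sum_congr rfl fun η _ => ?_
  rw [Ex_prod p (fun a c => q * (if (c || true) = η a then (1 : ℝ) else 0)
          + (1 - q) * (if (c || false) = η a then (1 : ℝ) else 0)), mul_comm]
  congr 1
  unfold bernoulliWeight
  refine Finset.prod_congr rfl fun a _ => ?_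
  cases η a <;> simp <;> ring

theorem sum_wt_union (p q : ℝ) (F : Finset X → ℝ) :
    ∑ W, wt p W * ∑ W', wt q W' * F (W ∪ W') = ∑ V, wt (p + q - p * q) V * F V := by
  rw [← Ex_toSet, ← Ex_toSet (p + q - p * q), ← Ex_or]
  congr 1
  funext ω
  rw [← Ex_toSet q (fun W' => F (toSet ω ∪ W'))]
  congr 1
  funext ω'
  congr 1
  ext a
  simp [toSet]

theorem wt_mul_le {q : ℝ} (h0 : 0 ≤ q) (h1 : q ≤ 1) {W T : Finset X} (hd : Disjoint W T) :
    wt q W * q ^ T.card ≤ wt q (W ∪ T) := by
  unfold wt
  rw [Finset.card_union_of_disjoint hd, pow_add, mul_right_comm]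
  refine mul_le_mul_of_nonneg_left ?_ (by positivity)
  exact pow_le_pow_of_le_one (by linarith) (by linarith) (by omega)

section Frag
variable {I : Type*} (A : Finset I) (S : I → Finset X)

theorem exists_frag (W : Finset X) (i : I) (hi : i ∈ A) :
    ∃ j ∈ A, S j ⊆ W ∪ S i ∧ ∀ j' ∈ A, S j' ⊆ W ∪ S i → (S j \ W).card ≤ (S j' \ W).card := by
  classical
  obtain ⟨j, hj, hmin⟩ := Finset.exists_min_image (A.filter (fun j => S j ⊆ W ∪ S i))
    (fun j => (S j \ W).card) ⟨i, Finset.mem_filter.mpr ⟨hi, Finset.subset_union_right⟩⟩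
  rw [Finset.mem_filter] at hj
  exact ⟨j, hj.1, hj.2, fun j' h1 h2 => hmin j' (Finset.mem_filter.mpr ⟨h1, h2⟩)⟩

open Classical in
/-- A minimal fragment. -/
noncomputable def frag (W : Finset X) (i : I) : Finset X :=
  if hi : i ∈ A then S (exists_frag A S W i hi).choose \ W else ∅

theorem frag_spec (W : Finset X) {i : I} (hi : i ∈ A) :
    ∃ j ∈ A, frag A S W i = S j \ W ∧ S j ⊆ W ∪ S i ∧
      ∀ j' ∈ A, S j' ⊆ W ∪ S i → (S j \ W).card ≤ (S j' \ W).card := by
  obtain ⟨h1, h2, h3⟩ := (exists_frag A S W i hi).choose_spec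
  exact ⟨_, h1, by simp [frag, hi], h2, h3⟩

theorem frag_subset (W : Finset X) {i : I} (hi : i ∈ A) : frag A S W i ⊆ S i := by
  obtain ⟨j, -, h1, h2, -⟩ := frag_spec A S W hi
  rw [h1]
  intro x hx
  rw [Finset.mem_sdiff] at hx
  exact (Finset.mem_union.mp (h2 hx.1)).resolve_left hx.2

theorem frag_disjoint (W : Finset X) {i : I} (hi : i ∈ A) : Disjoint W (frag A S W i) := by
  obtain ⟨j, -, h1, -, -⟩ := frag_spec A S W hi
  rw [h1]; exact Finset.disjoint_sdiff

theorem frag_cover (W : Finset X) {i : I} (hi : i ∈ A) : ∃ j ∈ A, S j ⊆ W ∪ frag A S W i := by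
  obtain ⟨j, hj, h1, -, -⟩ := frag_spec A S W hi
  refine ⟨j, hj, ?_⟩
  rw [h1]
  intro x hx
  by_cases h : x ∈ W <;> simp [h, hx]

theorem frag_subset_of (W : Finset X) {i : I} (hi : i ∈ A) {k : I} (hk : k ∈ A)
    (h : S k ⊆ W ∪ frag A S W i) : frag A S W i ⊆ S k := by
  have h0 := frag_subset A S W hi
  obtain ⟨j, -, h1, -, h3⟩ := frag_spec A S W hi
  have h4 := h3 k hk (h.trans (Finset.union_subset_union_right h0))
  have h5 : S k \ W ⊆ frag A S W i := by
    intro x hx
    rw [Finset.mem_sdiff] at hx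
    exact (Finset.mem_union.mp (h hx.1)).resolve_left hx.2
  rw [← h1] at h4
  rw [← Finset.eq_of_subset_of_card_le h5 h4]
  exact Finset.sdiff_subset

open Classical in
/-- A chosen member inside `Z`. -/
noncomputable def pick (Z : Finset X) : Finset X :=
  if h : ∃ k ∈ A, S k ⊆ Z then S h.choose else ∅

theorem frag_subset_pick (W : Finset X) {i : I} (hi : i ∈ A) :
    frag A S W i ⊆ pick A S (W ∪ frag A S W i) := by
  have h := frag_cover A S W hi
  unfold pick
  rw [dif_pos h]
  exact frag_subset_of A S W hi h.choose_spec.1 h.choose_spec.2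

theorem card_pick_le {l : ℕ} (hl : ∀ i ∈ A, (S i).card ≤ l) (Z : Finset X) :
    (pick A S Z).card ≤ l := by
  unfold pick
  split_ifs with h
  · exact hl _ h.choose_spec.1
  · simp

open Classical in
theorem large_frag_le {l m : ℕ} (hl : ∀ i ∈ A, (S i).card ≤ l) {r : ℝ} (hr : 0 ≤ r)
    (hq : 16 * r ≤ 1) :
    ∑ W, wt (16 * r) W * ∑ T ∈ (A.filter (fun i => m ≤ (frag A S W i).card)).image (frag A S W),
      r ^ T.card ≤ 2 ^ l * (1 / 16) ^ m := by
  have hq0 : 0 ≤ 16 * r := by positivity
  set U : Finset X → Finset (Finset X) := fun W =>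
    (A.filter (fun i => m ≤ (frag A S W i).card)).image (frag A S W) with hU
  have hUp : ∀ W, ∀ T ∈ U W, m ≤ T.card ∧ Disjoint W T ∧ T ⊆ pick A S (W ∪ T) := by
    intro W T hT
    obtain ⟨i, hi, rfl⟩ := Finset.mem_image.mp hT
    rw [Finset.mem_filter] at hi
    exact ⟨hi.2, frag_disjoint A S W hi.1, frag_subset_pick A S W hi.1⟩
  calc ∑ W, wt (16 * r) W * ∑ T ∈ U W, r ^ T.card
      ≤ ∑ W, ∑ T, (if T ∈ U W then wt (16 * r) (W ∪ T) * (1 / 16) ^ m else 0) := by
        refine Finset.sum_le_sum fun W _ => ?_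
        rw [Finset.mul_sum, Finset.sum_ite_mem, Finset.univ_inter]
        refine Finset.sum_le_sum fun T hT => ?_
        obtain ⟨h1, h2, -⟩ := hUp W T hT
        have e : r ^ T.card = (16 * r) ^ T.card * (1 / 16) ^ T.card := by
          rw [← mul_pow]; congr 1; ring
        rw [e, ← mul_assoc]
        exact mul_le_mul (wt_mul_le hq0 hq h2)
          (pow_le_pow_of_le_one (by norm_num) (by norm_num) h1) (by positivity)
          (wt_nonneg' hq0 hq _)
    _ ≤ ∑ T : Finset X, ∑ Z, (if T ⊆ pick A S Z then wt (16 * r) Z * (1 / 16) ^ m else 0) := by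
        rw [Finset.sum_comm]
        refine Finset.sum_le_sum fun T _ => ?_
        rw [← Finset.sum_filter, ← Finset.sum_filter,
          ← Finset.sum_image (s := Finset.univ.filter (fun W => T ∈ U W)) (g := fun W => W ∪ T)
            (f := fun Z => wt (16 * r) Z * (1 / 16) ^ m)]
        · refine Finset.sum_le_sum_of_subset_of_nonneg ?_
            (fun Z _ _ => mul_nonneg (wt_nonneg' hq0 hq _) (by positivity))
          intro Z hZ
          obtain ⟨W, hW, rfl⟩ := Finset.mem_image.mp hZ
          exact Finset.mem_filter.mpr ⟨Finset.mem_univ _,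
            (hUp W T (Finset.mem_filter.mp hW).2).2.2⟩
        · intro W hW W' hW' h
          have h1 := (hUp W T (Finset.mem_filter.mp hW).2).2.1
          have h2 := (hUp W' T (Finset.mem_filter.mp hW').2).2.1
          simp only at h
          rw [← Finset.union_sdiff_cancel_right h1, h, Finset.union_sdiff_cancel_right h2]
    _ ≤ ∑ Z : Finset X, wt (16 * r) Z * (2 ^ l * (1 / 16) ^ m) := by
        rw [Finset.sum_comm]
        refine Finset.sum_le_sum fun Z _ => ?_
        rw [← Finset.sum_filter, Finset.sum_const, nsmul_eq_mul]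
        have e : Finset.univ.filter (fun T => T ⊆ pick A S Z) = (pick A S Z).powerset := by
          ext T; simp
        rw [e, Finset.card_powerset]
        have h1 : ((2 ^ (pick A S Z).card : ℕ) : ℝ) ≤ 2 ^ l := by
          exact_mod_cast Nat.pow_le_pow_right (by norm_num) (card_pick_le A S hl Z)
        have h2 : 0 ≤ wt (16 * r) Z * (1 / 16) ^ m :=
          mul_nonneg (wt_nonneg' hq0 hq _) (by positivity)
        nlinarith [mul_le_mul_of_nonneg_right h1 h2]
    _ = 2 ^ l * (1 / 16) ^ m := by rw [← Finset.sum_mul, sum_wt', one_mul]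

end Frag

open Classical in
theorem spread_lemma {I : Type*} (μ : I → ℝ) (hμ : ∀ i, 0 ≤ μ i) {r : ℝ} (hr : 0 ≤ r)
    (hq : 16 * r < 1) (k : ℕ) :
    ∀ (A : Finset I) (S : I → Finset X), ∑ i ∈ A, μ i ≤ 1 → (∀ i ∈ A, (S i).card < 2 ^ k) →
      (∀ T : Finset X, T.Nonempty → ∑ i ∈ A.filter (fun i => T ⊆ S i), μ i ≤ r ^ T.card) →
      ∀ t : ℝ, k * (16 * r) ≤ t → t ≤ 1 →
      ∑ i ∈ A, μ i - (1 - (1 / 4) ^ k) / 3
        ≤ ∑ W, wt t W * (if ∃ i ∈ A, S i ⊆ W then 1 else 0) := by
  induction k with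
  | zero =>
    intro A S hA hS _ t ht0 ht1
    have ht : 0 ≤ t := by simpa using ht0
    rcases A.eq_empty_or_nonempty with rfl | ⟨i, hi⟩
    · simp
    · have h1 : S i = ∅ := by
        have := hS i hi
        simpa using this
      have h2 : ∀ W : Finset X, ∃ i ∈ A, S i ⊆ W := fun W => ⟨i, hi, by simp [h1]⟩
      simp only [h2, if_true, mul_one, sum_wt']
      simpa using hA
  | succ k ih =>
    intro A S hA hS hsp t ht0 ht1
    have hq0 : 0 ≤ 16 * r := by positivity
    set q := 16 * r with hqdef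
    set t' := (t - q) / (1 - q) with ht'
    have hkq : 0 ≤ (k : ℝ) * q := by positivity
    push_cast at ht0
    have ht'0 : k * q ≤ t' := by
      rw [ht', le_div_iff₀ (by linarith)]; nlinarith
    have ht'1 : t' ≤ 1 := by
      rw [ht', div_le_one (by linarith)]; linarith
    have htt : q + t' - q * t' = t := by
      have : 1 - q ≠ 0 := by linarith
      rw [ht']; field_simp; ring
    rw [← htt, ← sum_wt_union]
    have hbig := large_frag_le A S (l := 2 ^ (k + 1)) (m := 2 ^ k) (fun i hi => (hS i hi).le)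
      hr hq.le
    have hnum : (2 : ℝ) ^ (2 ^ (k + 1)) * (1 / 16) ^ (2 ^ k) ≤ (1 / 4) ^ (k + 1) := by
      rw [pow_succ 2 k, mul_comm (2 ^ k) 2, pow_mul, ← mul_pow]
      norm_num
      exact pow_le_pow_of_le_one (by norm_num) (by norm_num) Nat.lt_two_pow_self
    have key : ∀ W : Finset X, ∑ i ∈ A, μ i - (1 - (1 / 4) ^ k) / 3
        - ∑ T ∈ (A.filter (fun i => 2 ^ k ≤ (frag A S W i).card)).image (frag A S W), r ^ T.card
        ≤ ∑ W', wt t' W' * (if ∃ i ∈ A, S i ⊆ W ∪ W' then 1 else 0) := by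
      intro W
      have h1 := ih (A.filter (fun i => ¬ 2 ^ k ≤ (frag A S W i).card)) (frag A S W)
        (le_trans (Finset.sum_le_sum_of_subset_of_nonneg (Finset.filter_subset _ _)
          (fun i _ _ => hμ i)) hA)
        (fun i hi => not_le.mp (Finset.mem_filter.mp hi).2)
        (fun T hT => le_trans (Finset.sum_le_sum_of_subset_of_nonneg (by
          intro i hi
          simp only [Finset.mem_filter] at hi ⊢
          exact ⟨hi.1.1, hi.2.trans (frag_subset A S W hi.1.1)⟩) (fun i _ _ => hμ i)) (hsp T hT))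
        t' ht'0 ht'1
      have h2 := Finset.sum_filter_add_sum_filter_not A
        (fun i => 2 ^ k ≤ (frag A S W i).card) μ
      have h3 : ∑ i ∈ A.filter (fun i => 2 ^ k ≤ (frag A S W i).card), μ i
          ≤ ∑ T ∈ (A.filter (fun i => 2 ^ k ≤ (frag A S W i).card)).image (frag A S W),
            r ^ T.card := by
        rw [← Finset.sum_fiberwise_of_maps_to (g := frag A S W)
          (t := (A.filter (fun i => 2 ^ k ≤ (frag A S W i).card)).image (frag A S W))
          (fun i hi => Finset.mem_image_of_mem _ hi)]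
        refine Finset.sum_le_sum fun T hT => ?_
        obtain ⟨i, hi, rfl⟩ := Finset.mem_image.mp hT
        have hne : (frag A S W i).Nonempty := Finset.card_pos.mp
          (lt_of_lt_of_le (by positivity) (Finset.mem_filter.mp hi).2)
        refine le_trans (Finset.sum_le_sum_of_subset_of_nonneg ?_ (fun i _ _ => hμ i))
          (hsp _ hne)
        intro j hj
        simp only [Finset.mem_filter] at hj ⊢
        exact ⟨hj.1.1, hj.2 ▸ frag_subset A S W hj.1.1⟩
      have h4 : ∑ W', wt t' W' * (if ∃ i ∈ A.filter (fun i => ¬ 2 ^ k ≤ (frag A S W i).card),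
            frag A S W i ⊆ W' then (1 : ℝ) else 0)
          ≤ ∑ W', wt t' W' * (if ∃ i ∈ A, S i ⊆ W ∪ W' then 1 else 0) := by
        refine Finset.sum_le_sum fun W' _ => mul_le_mul_of_nonneg_left ?_
          (wt_nonneg' (hkq.trans ht'0) ht'1 _)
        split_ifs with h5 h6
        · exact le_rfl
        · exfalso
          obtain ⟨i, hi, h7⟩ := h5
          obtain ⟨j, hj, h8⟩ := frag_cover A S W (Finset.mem_filter.mp hi).1
          exact h6 ⟨j, hj, h8.trans (Finset.union_subset_union_right h7)⟩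
        · norm_num
        · exact le_rfl
      linarith
    have h5 := Finset.sum_le_sum (s := Finset.univ) (fun W _ =>
      mul_le_mul_of_nonneg_left (key W) (wt_nonneg' hq0 hq.le W))
    refine le_trans ?_ h5
    simp_rw [mul_sub (wt q _) (_ - _)]
    rw [Finset.sum_sub_distrib, ← Finset.sum_mul, sum_wt', pow_succ]
    have h6 := hbig.trans hnum
    rw [← hqdef, pow_succ (1 / 4 : ℝ)] at h6
    linarith

end Crest.Agent.R55
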