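import Crest.Agent.R52.Count
import Crest.Agent.R55.Extremal
import Crest.Agent.R55.Spread

/-! Transfer to the random graph. -/

set_option autoImplicit false
set_option linter.unusedSectionVars false

namespace Crest.Agent.R55
open Finset Crest.FinProb Crest.CombinatoricsR.RandomGraph Crest.Agent.R52
open scoped Pointwise

instance slotAct (n : ℕ) : MulAction (Equiv.Perm (Fin n)) (EdgeSlot n) where
  smul g z := ⟨Sym2.map g z.1, by rw [Sym2.isDiag_map g.injective]; exact z.2⟩
  one_smul z := Subtype.ext (by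
    change Sym2.map (1 : Equiv.Perm (Fin n)) z.1 = z.1
    simp)
  mul_smul g h z := Subtype.ext (by
    change Sym2.map (g * h : Equiv.Perm (Fin n)) z.1 = Sym2.map g (Sym2.map h z.1)
    rw [Sym2.map_map]; rfl)

theorem slot_smul_val {n : ℕ} (g : Equiv.Perm (Fin n)) (z : EdgeSlot n) :
    (g • z).1 = Sym2.map g z.1 := rfl

variable {W : Type} [Fintype W] [DecidableEq W] {n : ℕ}

theorem mem_imgSlots (J : Finset (Sym2 W)) (φ : W → Fin n) (z : EdgeSlot n) :
    z ∈ imgSlots J φ ↔ ∃ e ∈ J, Sym2.map φ e = z.1 := by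
  simp [imgSlots]

theorem smul_imgSlots (g : Equiv.Perm (Fin n)) (J : Finset (Sym2 W)) (φ : W → Fin n) :
    g • imgSlots J φ = imgSlots J (fun v => g (φ v)) := by
  ext z
  rw [← Finset.inv_smul_mem_iff, mem_imgSlots, mem_imgSlots, slot_smul_val]
  refine exists_congr fun e => and_congr_right fun _ => ?_
  have : Sym2.map (fun v => g (φ v)) e = Sym2.map g (Sym2.map φ e) := by
    rw [Sym2.map_map]; rfl
  rw [this]
  constructor
  · intro h
    rw [h, Sym2.map_map]; simp
  · intro h
    rw [← h, Sym2.map_map]; simp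

theorem Ex_subset {X : Type} [Fintype X] [DecidableEq X] (p : ℝ) (Z : Finset X) :
    Ex p (fun ω : X → Bool => if Z ⊆ toSet ω then (1 : ℝ) else 0) = p ^ Z.card := by
  have h := Ex_prod (ι := X) p (fun i b => if i ∈ Z then (if b then (1 : ℝ) else 0) else 1)
  have e1 : ∀ i, (p * (if i ∈ Z then (if true then (1 : ℝ) else 0) else 1)
      + (1 - p) * (if i ∈ Z then (if false then (1 : ℝ) else 0) else 1))
      = if i ∈ Z then p else 1 := by
    intro i; split_ifs <;> simp_all
  rw [Finset.prod_congr rfl (fun i _ => e1 i), Finset.prod_ite_mem, Finset.univ_inter, Finset.prod_const] at h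
  rw [← h]
  congr 1
  funext ω
  rw [Finset.prod_ite_mem, Finset.univ_inter]
  split_ifs with hZ
  · symm
    refine Finset.prod_eq_one fun i hi => ?_
    have := hZ hi
    simp only [toSet, mem_filter, mem_univ, true_and] at this
    simp [this]
  · obtain ⟨i, hi, hi'⟩ := Finset.not_subset.mp hZ
    symm
    refine Finset.prod_eq_zero hi ?_
    simp only [toSet, mem_filter, mem_univ, true_and] at hi'
    simp [hi']

/-- The subgraph spanned by a set of edges. -/
def spanSub (H : SimpleGraph W) (J : Finset (Sym2 W)) (hJ : ∀ e ∈ J, e ∈ H.edgeSet) :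
    H.Subgraph where
  verts := {v | ∃ u, s(v, u) ∈ J}
  Adj a b := s(a, b) ∈ J
  adj_sub := fun h => by simpa using hJ _ h
  edge_vert := fun h => ⟨_, h⟩
  symm := ⟨fun a b h => by rwa [Sym2.eq_swap]⟩

theorem copyCount_le (hW : Fintype.card W ≤ n) (H : SimpleGraph W) (J : Finset (Sym2 W))
    (hJ : ∀ e ∈ J, e ∈ H.edgeSet) (φ : W → Fin n) (hφ : Function.Injective φ)
    (ω : EdgeSlot n → Bool) :
    (graphOf ω).copyCount (spanSub H J hJ).coe
      ≤ ((Finset.univ.image (fun g : Equiv.Perm (Fin n) => g • imgSlots J φ)).filter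
        (fun Z => Z ⊆ toSet ω)).card := by
  classical
  unfold SimpleGraph.copyCount
  refine Finset.card_le_card_of_injOn
    (fun G' => Finset.univ.filter (fun z : EdgeSlot n => z.1 ∈ G'.edgeSet)) ?_ ?_
  · intro G' hG'
    obtain ⟨e⟩ : Nonempty ((spanSub H J hJ).coe ≃g G'.coe) := by simpa using hG'
    obtain ⟨ψ, hψ, hψe⟩ := exists_injective_extend hW
      (Finset.univ.filter (fun v => v ∈ (spanSub H J hJ).verts))
      (fun v => if h : v ∈ (spanSub H J hJ).verts then (e ⟨v, h⟩).1 else φ v) (by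
        intro a ha b hb hab
        have ha' : a ∈ (spanSub H J hJ).verts := by simpa using ha
        have hb' : b ∈ (spanSub H J hJ).verts := by simpa using hb
        simp only [dif_pos ha', dif_pos hb'] at hab
        simpa using e.injective (Subtype.ext hab))
    have hψ' : ∀ v (h : v ∈ (spanSub H J hJ).verts), ψ v = (e ⟨v, h⟩).1 := by
      intro v h
      rw [hψe v (by simpa using h), dif_pos h]
    obtain ⟨g, hg⟩ := Equiv.Perm.exists_extending_pair φ ψ hφ hψ
    simp only [Finset.coe_filter, Finset.mem_image, Finset.mem_univ, true_and, Set.mem_ofPred_eq]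
    refine ⟨⟨g, ?_⟩, ?_⟩
    · rw [smul_imgSlots]
      simp_rw [hg]
      ext z
      rw [mem_imgSlots, Finset.mem_filter]
      simp only [Finset.mem_univ, true_and]
      constructor
      · rintro ⟨f, hf, hfz⟩
        rw [← hfz]
        induction f using Sym2.ind with
        | h a b =>
          have ha : a ∈ (spanSub H J hJ).verts := ⟨b, hf⟩
          have hb : b ∈ (spanSub H J hJ).verts := ⟨a, by rwa [Sym2.eq_swap]⟩
          have h1 : (spanSub H J hJ).coe.Adj ⟨a, ha⟩ ⟨b, hb⟩ := hf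
          have h2 := e.map_adj_iff.mpr h1
          rw [Sym2.map_mk, hψ' a ha, hψ' b hb]
          exact h2
      · obtain ⟨z, hz⟩ := z
        induction z using Sym2.ind with
        | h x y =>
          intro hxy
          have hxy' : G'.Adj x y := hxy
          obtain ⟨a, ha⟩ := e.surjective ⟨x, G'.edge_vert hxy'⟩
          obtain ⟨b, hb⟩ := e.surjective ⟨y, G'.edge_vert hxy'.symm⟩
          have h2 : G'.coe.Adj (e a) (e b) := by
            rw [ha, hb]; exact hxy'
          have h1 : s(a.1, b.1) ∈ J := e.map_adj_iff.mp h2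
          refine ⟨_, h1, ?_⟩
          rw [Sym2.map_mk, hψ' a.1 a.2, hψ' b.1 b.2]
          simp [ha, hb]
    · intro z hz
      obtain ⟨z, hzd⟩ := z
      induction z using Sym2.ind with
      | h x y =>
        have hxy : G'.Adj x y := (Finset.mem_filter.mp hz).2
        obtain ⟨h, h'⟩ := (graphOf_adj ω x y).mp (G'.adj_sub hxy)
        simp [toSet, h']
  · have hv : ∀ G' : (graphOf ω).Subgraph, Nonempty ((spanSub H J hJ).coe ≃g G'.coe) →
        ∀ x, x ∈ G'.verts ↔ ∃ y, G'.Adj x y := by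
      rintro G' ⟨e⟩ x
      refine ⟨fun hx => ?_, fun ⟨y, hy⟩ => G'.edge_vert hy⟩
      obtain ⟨⟨a, b, hab⟩, ha⟩ := e.surjective ⟨x, hx⟩
      have hb : b ∈ (spanSub H J hJ).verts := ⟨a, by rwa [Sym2.eq_swap]⟩
      have h1 : (spanSub H J hJ).coe.Adj ⟨a, b, hab⟩ ⟨b, hb⟩ := hab
      have h2 := e.map_adj_iff.mpr h1
      rw [ha] at h2
      exact ⟨_, h2⟩
    have hadj : ∀ G₁ G₂ : (graphOf ω).Subgraph,
        Finset.univ.filter (fun z : EdgeSlot n => z.1 ∈ G₁.edgeSet)
          = Finset.univ.filter (fun z : EdgeSlot n => z.1 ∈ G₂.edgeSet) →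
        ∀ x y, G₁.Adj x y → G₂.Adj x y := by
      intro G₁ G₂ h x y hxy
      have hd : ¬ (s(x, y)).IsDiag := by simpa using (G₁.adj_sub hxy).ne
      have h1 : (⟨s(x, y), hd⟩ : EdgeSlot n)
          ∈ Finset.univ.filter (fun z : EdgeSlot n => z.1 ∈ G₁.edgeSet) :=
        Finset.mem_filter.mpr ⟨Finset.mem_univ _, hxy⟩
      rw [h] at h1
      exact (Finset.mem_filter.mp h1).2
    intro G₁ h₁ G₂ h₂ h
    have h₁' : Nonempty ((spanSub H J hJ).coe ≃g G₁.coe) := by simpa using h₁
    have h₂' : Nonempty ((spanSub H J hJ).coe ≃g G₂.coe) := by simpa using h₂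
    have hA : ∀ x y, G₁.Adj x y ↔ G₂.Adj x y := fun x y =>
      ⟨hadj G₁ G₂ h x y, hadj G₂ G₁ h.symm x y⟩
    refine SimpleGraph.Subgraph.ext ?_ ?_
    · ext x
      rw [hv G₁ h₁', hv G₂ h₂']
      simp_rw [hA]
    · ext x y
      exact hA x y

theorem orbit_bound (hW : Fintype.card W ≤ n) (H : SimpleGraph W) [DecidableRel H.Adj]
    {p : ℝ} (hp0 : 0 ≤ p) (hp1 : p ≤ 1)
    (hE : ∀ F : H.Subgraph, (1 : ℝ) / 2 ≤ gnpExpect n p (fun G => (G.copyCount F.coe : ℝ)))
    (φ : W → Fin n) (hφ : Function.Injective φ) (Z : Finset (EdgeSlot n))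
    (hZ : Z ⊆ imgSlots H.edgeFinset φ) :
    1 / 2 ≤ ((Finset.univ.image (fun g : Equiv.Perm (Fin n) => g • Z)).card : ℝ) * p ^ Z.card := by
  classical
  set J := H.edgeFinset.filter (fun e => ∃ z ∈ Z, Sym2.map φ e = z.1) with hJdef
  have hJ : ∀ e ∈ J, e ∈ H.edgeSet := fun e he => by
    simpa using (Finset.mem_filter.mp he).1
  have hZJ : imgSlots J φ = Z := by
    ext z
    rw [mem_imgSlots]
    constructor
    · rintro ⟨e, he, hez⟩
      obtain ⟨z', hz', h⟩ := (Finset.mem_filter.mp he).2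
      have : z = z' := Subtype.ext (hez.symm.trans h)
      rwa [this]
    · intro hz
      obtain ⟨e, he, hez⟩ := (mem_imgSlots _ _ _).mp (hZ hz)
      exact ⟨e, Finset.mem_filter.mpr ⟨he, z, hz, hez⟩, hez⟩
  refine (hE (spanSub H J hJ)).trans ?_
  change Ex p (fun ω => (((graphOf ω).copyCount (spanSub H J hJ).coe : ℕ) : ℝ)) ≤ _
  refine (Ex_mono hp0 hp1 (g := fun ω =>
    ∑ Z' ∈ Finset.univ.image (fun g : Equiv.Perm (Fin n) => g • Z),
      if Z' ⊆ toSet ω then (1 : ℝ) else 0) fun ω => ?_).trans (le_of_eq ?_)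
  · have := copyCount_le hW H J hJ φ hφ ω
    rw [hZJ, Finset.card_filter] at this
    exact_mod_cast this
  · rw [Ex_sum]
    simp_rw [Ex_subset]
    rw [Finset.sum_congr rfl (g := fun _ => p ^ Z.card)]
    · simp
    · intro Z' hZ'
      obtain ⟨g, -, rfl⟩ := Finset.mem_image.mp hZ'
      rw [Finset.card_smul_finset]

theorem main (W : Type) [Fintype W] [DecidableEq W] (H : SimpleGraph W)
    [DecidableRel H.Adj] (hW : Fintype.card W ≤ n) (hH : 1 ≤ H.edgeFinset.card)
    (p : ℝ) (hp0 : 0 ≤ p) (hp1 : p ≤ 1)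
    (hE : ∀ F : H.Subgraph, (1 : ℝ) / 2 ≤ gnpExpect n p (fun G => (G.copyCount F.coe : ℝ))) :
    (1 : ℝ) / 2 ≤ gnpProb n
      (min 1 (2048 * Real.exp 50 * p * (1 + Real.logb 2 (H.edgeFinset.card : ℝ))))
      {G | H.IsContained G} := by
  classical
  set t := 2048 * Real.exp 50 * p * (1 + Real.logb 2 (H.edgeFinset.card : ℝ)) with ht
  rcases le_or_gt 1 t with h1 | h1
  · rw [min_eq_left h1, gnpProb_one_of_card_le hW]; norm_num
  rw [min_eq_right h1.le]
  have hc : Fintype.card W ≤ Fintype.card (Fin n) := by simpa using hW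
  obtain ⟨φ⟩ := Function.Embedding.nonempty_of_card_le hc
  set H0 := imgSlots H.edgeFinset φ with hH0
  have hcard : H0.card = H.edgeFinset.card :=
    card_imgSlots _ (fun e he => H.not_isDiag_of_mem_edgeSet (by simpa using he)) φ φ.injective
  have hS := orbit_bound hW H hp0 hp1 hE φ φ.injective
  have hp : 0 < p := by
    refine lt_of_le_of_ne hp0 ?_
    rintro rfl
    have := hS H0 (Finset.Subset.refl _)
    rw [zero_pow (by omega), mul_zero] at this
    norm_num at this
  have hsp := spread_of_orbits (Equiv.Perm (Fin n)) H0 hp hS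
  set k := Nat.log 2 H.edgeFinset.card + 1 with hk
  have hk1 : (k : ℝ) ≤ 1 + Real.logb 2 (H.edgeFinset.card : ℝ) := by
    have := Real.natLog_le_logb H.edgeFinset.card 2
    push_cast [hk] at this ⊢
    linarith
  have hk2 : (1 : ℝ) ≤ k := by exact_mod_cast Nat.le_add_left 1 _
  set r := 2 * (Real.exp 33 * p) with hr
  have hr0 : 0 ≤ r := by positivity
  have hkt : k * (16 * r) ≤ t := by
    have h2 : Real.exp 33 ≤ Real.exp 50 := Real.exp_le_exp.mpr (by norm_num)
    have h3 : 16 * r ≤ 2048 * Real.exp 50 * p := by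
      have := Real.exp_pos 50
      rw [hr]; nlinarith
    rw [ht, mul_comm]
    exact mul_le_mul h3 hk1 (by positivity) (by positivity)
  have hq : 16 * r < 1 := by nlinarith
  have hN := card_pos' (Equiv.Perm (Fin n))
  have hmain := spread_lemma (X := EdgeSlot n)
    (fun _ : Equiv.Perm (Fin n) => 1 / (Fintype.card (Equiv.Perm (Fin n)) : ℝ))
    (fun _ => by positivity) hr0 hq k Finset.univ (fun g => g • H0)
    (by rw [Finset.sum_const, Finset.card_univ, nsmul_eq_mul, mul_one_div_cancel hN.ne'])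
    (fun g _ => by
      rw [Finset.card_smul_finset, hcard]
      exact Nat.lt_pow_succ_log_self (by norm_num) _)
    (fun T hT => by
      rw [Finset.sum_const, nsmul_eq_mul, mul_one_div]
      refine (hsp T).trans ?_
      rw [hr, mul_pow 2]
      refine mul_le_mul_of_nonneg_right ?_ (by positivity)
      exact le_self_pow₀ (by norm_num) (Finset.card_pos.mpr hT).ne')
    t hkt h1.le
  rw [Finset.sum_const, Finset.card_univ, nsmul_eq_mul, mul_one_div_cancel hN.ne',
    ← Ex_toSet] at hmain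
  have ht0 : 0 ≤ t := le_trans (by positivity) hkt
  have h4 : (0 : ℝ) ≤ (1 / 4) ^ k := by positivity
  refine le_trans (by linarith) (hmain.trans ?_)
  refine Ex_le_prob ht0 h1.le (fun ω => by split_ifs <;> norm_num) fun ω hω => ?_
  rw [if_neg]
  rintro ⟨g, -, hg⟩
  apply hω
  refine ⟨⟨⟨fun v => g (φ v), ?_⟩, g.injective.comp φ.injective⟩⟩
  intro a b hab
  rw [graphOf_adj]
  have hd : ¬ (s(g (φ a), g (φ b))).IsDiag := by simpa using hab.ne
  refine ⟨hd, ?_⟩
  have h5 : (⟨s(g (φ a), g (φ b)), hd⟩ : EdgeSlot n) ∈ g • H0 := by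
    rw [hH0, smul_imgSlots, mem_imgSlots]
    exact ⟨s(a, b), by simpa using hab, rfl⟩
  simpa [toSet] using hg h5

end Crest.Agent.R55
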