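import Crest.Agent.R55.Ent

/-! Revealing a random subset coordinate by coordinate. -/

set_option autoImplicit false
set_option linter.unusedSectionVars false

namespace Crest.Agent.R55
open Finset Real

/-- The function `x ^ (3/2)`. -/
noncomputable def phi (x : ℝ) : ℝ := x * √x

theorem phi_nonneg {x : ℝ} (hx : 0 ≤ x) : 0 ≤ phi x := mul_nonneg hx (Real.sqrt_nonneg x)

theorem continuous_phi : Continuous phi := by unfold phi; fun_prop

theorem young {u y : ℝ} (hu : 0 ≤ u) (hy : 0 ≤ y) : u * √y ≤ 2 / 3 * phi u + 1 / 3 * phi y := by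
  unfold phi
  have h1 := Real.sqrt_nonneg u
  have h2 := Real.sqrt_nonneg y
  have h3 := Real.mul_self_sqrt hu
  have h4 := Real.mul_self_sqrt hy
  set s := √u
  set t := √y
  rw [← h3, ← h4]
  nlinarith [mul_nonneg (sq_nonneg (s - t)) (by positivity : 0 ≤ 2 * s + t)]

section Step
variable {Ω α β : Type*} [Fintype Ω] [Fintype α] [Fintype β] [DecidableEq α] [DecidableEq β]

/-- Indicator of a Boolean. -/
def ind (c : Bool) : ℝ := if c then 1 else 0

theorem ind_nonneg (c : Bool) : 0 ≤ ind c := by unfold ind; split_ifs <;> norm_num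

theorem push_pair (w : Ω → ℝ) (Y : Ω → β) (b : Ω → Bool) (y : β) (c : Bool) :
    push (fun ω => (Y ω, b ω)) w (y, c) = push Y (fun ω => w ω * ind (b ω == c)) y := by
  unfold push ind
  refine Finset.sum_congr rfl fun ω _ => ?_
  by_cases h1 : Y ω = y <;> by_cases h2 : b ω = c <;> simp [h1, h2]

theorem step (w : Ω → ℝ) (hw : ∀ ω, 0 ≤ w ω) (hs : ∑ ω, w ω = 1) (U : Ω → α) (Y : Ω → β)
    (a : α → Bool) (b : Ω → Bool) (hab : ∀ ω, 0 < w ω → b ω = true → a (U ω) = true)
    {θ : ℝ} (hθ : 0 < θ) :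
    3 / 2 * (Hv w (fun ω => ((U ω, Y ω), b ω)) - Hv w (fun ω => (U ω, Y ω)))
      - 1 / 2 * (Hv w (fun ω => (Y ω, b ω)) - Hv w Y)
      ≤ -log θ * ∑ ω, w ω * ind (b ω)
        + θ * ∑ ω, w ω * phi (cE w Y (fun ω => ind (a (U ω))) (Y ω)) := by
  set y := cE w Y (fun ω => ind (a (U ω))) with hy
  set pc : β → Bool → ℝ := fun η c => cE w Y (fun ω => ind (b ω == c)) η with hpc
  have hy0 : ∀ η, 0 ≤ y η := cE_nonneg w hw Y _ (fun _ => ind_nonneg _)
  have hpc0 : ∀ η c, 0 ≤ pc η c := fun η c => cE_nonneg w hw Y _ (fun _ => ind_nonneg _) η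
  have hypos : ∀ ω, 0 < w ω → b ω = true → 0 < y (Y ω) := fun ω h1 h2 =>
    cE_pos w hw Y _ (fun _ => ind_nonneg _) ω h1 (by simp [ind, hab ω h1 h2])
  have hpcpos : ∀ ω, 0 < w ω → 0 < pc (Y ω) (b ω) := fun ω h1 =>
    cE_pos w hw Y _ (fun _ => ind_nonneg _) ω h1 (by simp [ind])
  -- code 1
  have c1 := Hv_bit_le w hw (fun ω => (U ω, Y ω)) b
    (fun r c => if c then ind (a r.1) * (θ * √(y r.2)) else 1)
    (fun r c => by
      split_ifs
      · exact mul_nonneg (ind_nonneg _) (by positivity)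
      · norm_num)
    (fun ω h1 => by
      by_cases h2 : b ω = true
      · have := hypos ω h1 h2
        simp only [h2, if_true, hab ω h1 h2, ind, one_mul]
        positivity
      · simp [h2])
  have c1a : ∑ ω, w ω * log (if b ω then ind (a (U ω)) * (θ * √(y (Y ω))) else 1)
      = log θ * ∑ ω, w ω * ind (b ω) + 1 / 2 * ∑ ω, w ω * (ind (b ω) * log (y (Y ω))) := by
    rw [Finset.mul_sum, Finset.mul_sum, ← Finset.sum_add_distrib]
    refine Finset.sum_congr rfl fun ω _ => ?_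
    rcases (hw ω).eq_or_lt with h1 | h1
    · rw [← h1]; simp
    · by_cases h2 : b ω = true
      · have h3 := hypos ω h1 h2
        simp only [h2, if_true, hab ω h1 h2, ind, one_mul]
        rw [Real.log_mul hθ.ne' (Real.sqrt_pos.mpr h3).ne', Real.log_sqrt h3.le]
        ring
      · simp [h2, ind]
  have c1b : ∑ ω, w ω * (1 + ind (a (U ω)) * (θ * √(y (Y ω))))
      = 1 + θ * ∑ ω, w ω * phi (y (Y ω)) := by
    have := tower w hw Y (fun ω => ind (a (U ω))) (fun η => θ * √(y η))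
    simp_rw [mul_add, mul_one]
    rw [Finset.sum_add_distrib, hs, this, Finset.mul_sum]
    congr 1
    refine Finset.sum_congr rfl fun ω _ => ?_
    unfold phi; ring
  simp only [Bool.false_eq_true, if_false, if_true] at c1
  rw [c1a, c1b, hs] at c1
  -- code 2
  have c2 := Hv_bit_le w hw (fun ω => (U ω, Y ω)) b
    (fun r c => if c then ind (a r.1) * (pc r.2 true / y r.2) else pc r.2 false)
    (fun r c => by
      split_ifs
      · exact mul_nonneg (ind_nonneg _) (div_nonneg (hpc0 _ _) (hy0 _))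
      · exact hpc0 _ _)
    (fun ω h1 => by
      have h3 := hpcpos ω h1
      by_cases h2 : b ω = true
      · have := hypos ω h1 h2
        simp only [h2, if_true, hab ω h1 h2, ind, one_mul] at h3 ⊢
        positivity
      · simp only [Bool.not_eq_true] at h2
        simpa [h2] using h3)
  have c2a : ∑ ω, w ω * log (if b ω then ind (a (U ω)) * (pc (Y ω) true / y (Y ω))
        else pc (Y ω) false)
      = -(Hv w (fun ω => (Y ω, b ω)) - Hv w Y) - ∑ ω, w ω * (ind (b ω) * log (y (Y ω))) := by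
    unfold Hv
    rw [neg_sub_neg, neg_sub, ← Finset.sum_sub_distrib, ← Finset.sum_sub_distrib]
    refine Finset.sum_congr rfl fun ω _ => ?_
    rcases (hw ω).eq_or_lt with h1 | h1
    · rw [← h1]; simp
    · have h3 := hpcpos ω h1
      have h4 : 0 < push Y w (Y ω) := lt_of_lt_of_le h1 (le_push Y hw ω)
      rw [push_pair, ← push_mul_cE w hw Y (fun ω' => ind (b ω' == b ω)),
        Real.log_mul h4.ne' h3.ne']
      by_cases h2 : b ω = true
      · have h5 := hypos ω h1 h2
        simp only [h2, if_true, hab ω h1 h2, ind, one_mul] at h3 ⊢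
        rw [Real.log_div h3.ne' h5.ne']
        simp only [hpc, ind]
        ring
      · simp only [Bool.not_eq_true] at h2
        simp only [h2, Bool.false_eq_true, if_false, ind, zero_mul, mul_zero, sub_zero, hpc]
        ring
  have c2b : ∑ ω, w ω * (pc (Y ω) false + ind (a (U ω)) * (pc (Y ω) true / y (Y ω))) ≤ 1 := by
    have h1 := tower w hw Y (fun ω => ind (a (U ω))) (fun η => pc η true / y η)
    have h2 := tower w hw Y (fun ω => ind (b ω == false)) (fun _ => 1)
    have h3 := tower w hw Y (fun ω => ind (b ω == true)) (fun _ => 1)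
    simp_rw [mul_add]
    rw [Finset.sum_add_distrib, h1]
    have h4 : ∑ ω, w ω * (y (Y ω) * (pc (Y ω) true / y (Y ω))) ≤ ∑ ω, w ω * pc (Y ω) true := by
      refine Finset.sum_le_sum fun ω _ => mul_le_mul_of_nonneg_left ?_ (hw ω)
      rcases (hy0 (Y ω)).eq_or_lt with h | h
      · rw [← h]; simpa using hpc0 _ _
      · rw [mul_div_cancel₀ _ h.ne']
    simp only [mul_one] at h2 h3
    have h5 : ∑ ω, w ω * ind (b ω == false) + ∑ ω, w ω * ind (b ω == true) = 1 := by
      rw [← Finset.sum_add_distrib, ← hs]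
      refine Finset.sum_congr rfl fun ω _ => ?_
      cases b ω <;> simp [ind]
    simp only [hpc] at h4 ⊢
    linarith
  simp only [Bool.false_eq_true, if_false, if_true] at c2
  rw [c2a, hs] at c2
  linarith

/-- Conditional Jensen inequality for `phi`. -/
theorem phi_cE_le {γ : Type*} [Fintype γ] [DecidableEq γ] (w : Ω → ℝ) (hw : ∀ ω, 0 ≤ w ω)
    (Z : Ω → γ) (f : γ → β) (g : Ω → ℝ) (hg : ∀ ω, 0 ≤ g ω) :
    ∑ ω, w ω * phi (cE w (fun ω => f (Z ω)) g (f (Z ω))) ≤ ∑ ω, w ω * phi (cE w Z g (Z ω)) := by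
  set y := cE w (fun ω => f (Z ω)) g
  set u := cE w Z g
  have h1 := tower w hw (fun ω => f (Z ω)) g (fun η => √(y η))
  have h2 := tower w hw Z g (fun z => √(y (f z)))
  have h3 : ∑ ω, w ω * (u (Z ω) * √(y (f (Z ω))))
      ≤ ∑ ω, w ω * (2 / 3 * phi (u (Z ω)) + 1 / 3 * phi (y (f (Z ω)))) :=
    Finset.sum_le_sum fun ω _ => mul_le_mul_of_nonneg_left
      (young (cE_nonneg w hw _ g hg _) (cE_nonneg w hw _ g hg _)) (hw ω)
  have h4 : ∑ ω, w ω * (2 / 3 * phi (u (Z ω)) + 1 / 3 * phi (y (f (Z ω))))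
      = 2 / 3 * ∑ ω, w ω * phi (u (Z ω)) + 1 / 3 * ∑ ω, w ω * phi (y (f (Z ω))) := by
    rw [Finset.mul_sum, Finset.mul_sum, ← Finset.sum_add_distrib]
    exact Finset.sum_congr rfl fun ω _ => by ring
  have h5 : ∑ ω, w ω * phi (y (f (Z ω))) = ∑ ω, w ω * (y (f (Z ω)) * √(y (f (Z ω)))) := rfl
  linarith

end Step

section Reveal
variable {Ω X : Type*} [Fintype Ω] [Fintype X] [DecidableEq X]

theorem reveal_aux (w : Ω → ℝ) (hw : ∀ ω, 0 ≤ w ω) (hs : ∑ ω, w ω = 1) (U Z : Ω → Finset X)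
    (hZ : ∀ ω, 0 < w ω → Z ω ⊆ U ω) {θ : ℝ} (hθ : 0 < θ) (T : Finset X) :
    3 / 2 * (Hv w (fun ω => (U ω, Z ω ∩ T)) - Hv w U) - 1 / 2 * Hv w (fun ω => Z ω ∩ T)
      ≤ -log θ * ∑ ω, w ω * (Z ω ∩ T).card
        + θ * ∑ e ∈ T, ∑ ω, w ω * phi (cE w Z (fun ω => ind (decide (e ∈ U ω))) (Z ω)) := by
  induction T using Finset.induction_on with
  | empty =>
    simp only [Finset.inter_empty, Finset.card_empty, Finset.sum_empty]
    rw [Hv_const w hs, Hv_congr w (fun ω => (U ω, (∅ : Finset X))) U (by simp)]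
    simp
  | insert e T he ih =>
    have h1 := step w hw hs U (fun ω => Z ω ∩ T) (fun u => decide (e ∈ u))
      (fun ω => decide (e ∈ Z ω)) (fun ω h1 h2 => by
        simp only [decide_eq_true_eq] at h2 ⊢
        exact hZ ω h1 h2) hθ
    have key : ∀ ω ω', Z ω ∩ insert e T = Z ω' ∩ insert e T ↔
        (Z ω ∩ T = Z ω' ∩ T ∧ (e ∈ Z ω ↔ e ∈ Z ω')) := by
      intro ω ω'
      simp only [Finset.ext_iff, Finset.mem_inter, Finset.mem_insert]
      constructor
      · intro h
        refine ⟨fun x => ?_, ?_⟩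
        · have := h x; tauto
        · have := h e; tauto
      · rintro ⟨h2, h3⟩ x
        have := h2 x
        by_cases hx : x = e
        · subst hx; tauto
        · tauto
    have e1 : Hv w (fun ω => (U ω, Z ω ∩ insert e T))
        = Hv w (fun ω => ((U ω, Z ω ∩ T), decide (e ∈ Z ω))) := by
      refine Hv_congr w _ _ fun ω ω' => ?_
      simp only [Prod.mk.injEq, key, decide_eq_decide]; tauto
    have e2 : Hv w (fun ω => Z ω ∩ insert e T)
        = Hv w (fun ω => (Z ω ∩ T, decide (e ∈ Z ω))) := by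
      refine Hv_congr w _ _ fun ω ω' => ?_
      simp only [Prod.mk.injEq, key, decide_eq_decide]
    have e3 : ∑ ω, w ω * ((Z ω ∩ insert e T).card : ℝ)
        = ∑ ω, w ω * (Z ω ∩ T).card + ∑ ω, w ω * ind (decide (e ∈ Z ω)) := by
      rw [← Finset.sum_add_distrib]
      refine Finset.sum_congr rfl fun ω _ => ?_
      by_cases h : e ∈ Z ω
      · rw [Finset.inter_insert_of_mem h, Finset.card_insert_of_notMem (by simp [he])]
        simp [h, ind]; ring
      · rw [Finset.inter_insert_of_notMem h]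
        simp [h, ind]
    have h2 := phi_cE_le w hw Z (fun z => z ∩ T) (fun ω => ind (decide (e ∈ U ω)))
      (fun _ => ind_nonneg _)
    rw [e1, e2, e3, Finset.sum_insert he]
    have h3 := mul_le_mul_of_nonneg_left h2 hθ.le
    linarith

theorem reveal (w : Ω → ℝ) (hw : ∀ ω, 0 ≤ w ω) (hs : ∑ ω, w ω = 1) (U Z : Ω → Finset X)
    (hZ : ∀ ω, 0 < w ω → Z ω ⊆ U ω) {θ : ℝ} (hθ : 0 < θ) :
    3 / 2 * (Hv w (fun ω => (U ω, Z ω)) - Hv w U) - 1 / 2 * Hv w Z
      ≤ -log θ * ∑ ω, w ω * (Z ω).card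
        + θ * ∑ e, ∑ ω, w ω * phi (cE w Z (fun ω => ind (decide (e ∈ U ω))) (Z ω)) := by
  simpa only [Finset.inter_univ] using reveal_aux w hw hs U Z hZ hθ Finset.univ

end Reveal

end Crest.Agent.R55
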